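import Vale.Agent.P242.H744.NuC

/-!
P242: Harnack inequality for `ν` and its bound by the drop function `D_t`.
-/

set_option linter.all false

open MeasureTheory Filter Topology Set
open scoped ENNReal NNReal MeasureTheory

universe u

namespace Vale.Agent.P242.H744

open Vale.Agent.P233 Vale.Agent.P233.RA Vale.Agent.P242.H990

section real

variable {f : ℝ → ℝ} (hf : ContinuousOn f (Ioi 0)) (hf0 : ∀ s, 0 < s → 0 ≤ f s)

include hf hf0 in
/-- a window of the integral -/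
theorem ee_window {T t a v : ℝ} (ht : 0 < t) (hta : t ≤ a) (haT : 2 * a ≤ T) (hv : 0 ≤ v)
    (h : ∀ s, a ≤ s → s ≤ 2 * a → v ≤ s * f s) : v ≤ 4 * (a / t) * EE f T t := by
  have ha : 0 < a := lt_of_lt_of_le ht hta
  have ha2 : a ≤ 2 * a := by linarith
  have e1 : EE f T t = (∫ s in t..a, (t / s) ^ (1 / 8 : ℝ) * f s)
      + ((∫ s in a..2 * a, (t / s) ^ (1 / 8 : ℝ) * f s)
      + ∫ s in (2 * a)..T, (t / s) ^ (1 / 8 : ℝ) * f s) := by
    unfold EE
    rw [intervalIntegral.integral_add_adjacent_intervals (ee_int hf t ht ha ha2)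
      (ee_int hf t ht (by linarith) haT),
      intervalIntegral.integral_add_adjacent_intervals (ee_int hf t ht ht hta)
      (ee_int hf t ht ha (by linarith))]
  have h1 : 0 ≤ ∫ s in t..a, (t / s) ^ (1 / 8 : ℝ) * f s :=
    intervalIntegral.integral_nonneg hta fun s hs => by
      have h0 : 0 < s := lt_of_lt_of_le ht hs.1
      exact mul_nonneg (Real.rpow_nonneg (by positivity) _) (hf0 s h0)
  have h3 : 0 ≤ ∫ s in (2 * a)..T, (t / s) ^ (1 / 8 : ℝ) * f s :=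
    intervalIntegral.integral_nonneg haT fun s hs => by
      have h0 : 0 < s := lt_of_lt_of_le (by linarith) hs.1
      exact mul_nonneg (Real.rpow_nonneg (by positivity) _) (hf0 s h0)
  have h2 : ∫ s in a..2 * a, (t / (2 * a)) * (v / (2 * a))
      ≤ ∫ s in a..2 * a, (t / s) ^ (1 / 8 : ℝ) * f s := by
    refine intervalIntegral.integral_mono_on ha2 (by simp) (ee_int hf t ht ha ha2) ?_
    intro s hs
    have h0 : 0 < s := lt_of_lt_of_le ha hs.1
    have c1 : t / (2 * a) ≤ (t / s) ^ (1 / 8 : ℝ) := by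
      have d1 : t / (2 * a) ≤ t / s := div_le_div_of_nonneg_left ht.le h0 hs.2
      have d2 : t / s ≤ 1 := by
        rw [div_le_one h0]
        exact hta.trans hs.1
      have d3 : t / s ≤ (t / s) ^ (1 / 8 : ℝ) := by
        have := Real.rpow_le_rpow_of_exponent_ge (by positivity : 0 < t / s) d2
          (by norm_num : (1 / 8 : ℝ) ≤ 1)
        rwa [Real.rpow_one] at this
      exact d1.trans d3
    have c2 : v / (2 * a) ≤ f s := by
      rw [div_le_iff₀ (by positivity)]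
      have := h s hs.1 hs.2
      have := mul_le_mul_of_nonneg_right hs.2 (hf0 s h0)
      linarith
    exact mul_le_mul c1 c2 (by positivity) (Real.rpow_nonneg (by positivity) _)
  rw [intervalIntegral.integral_const, smul_eq_mul] at h2
  have h4 : (2 * a - a) * (t / (2 * a) * (v / (2 * a))) = t / (4 * a) * v := by
    field_simp
    ring
  rw [h4] at h2
  have h5 : t / (4 * a) * v ≤ EE f T t := by linarith
  have h6 := mul_le_mul_of_nonneg_left h5 (by positivity : 0 ≤ 4 * (a / t))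
  have h7 : 4 * (a / t) * (t / (4 * a) * v) = v := by field_simp
  linarith

include hf hf0 in
/-- monotonicity of `t^{-1/8} E(t)` -/
theorem ee_mono {T t t' : ℝ} (ht' : 0 < t') (htt : t' ≤ t) (htT : t ≤ T) :
    EE f T t ≤ (t / t') ^ (1 / 8 : ℝ) * EE f T t' := by
  have ht : 0 < t := lt_of_lt_of_le ht' htt
  have e1 : EE f T t' = (∫ s in t'..t, (t' / s) ^ (1 / 8 : ℝ) * f s)
      + ∫ s in t..T, (t' / s) ^ (1 / 8 : ℝ) * f s := by
    unfold EE
    rw [intervalIntegral.integral_add_adjacent_intervals (ee_int hf t' ht' ht' htt)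
      (ee_int hf t' ht' ht htT)]
  have h1 : 0 ≤ ∫ s in t'..t, (t' / s) ^ (1 / 8 : ℝ) * f s :=
    intervalIntegral.integral_nonneg htt fun s hs => by
      have h0 : 0 < s := lt_of_lt_of_le ht' hs.1
      exact mul_nonneg (Real.rpow_nonneg (by positivity) _) (hf0 s h0)
  have e2 : EE f T t = (t / t') ^ (1 / 8 : ℝ) * ∫ s in t..T, (t' / s) ^ (1 / 8 : ℝ) * f s := by
    unfold EE
    rw [← intervalIntegral.integral_const_mul]
    refine intervalIntegral.integral_congr fun s hs => ?_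
    rw [uIcc_of_le htT] at hs
    have hs0 : 0 < s := lt_of_lt_of_le ht hs.1
    have : (t / s) ^ (1 / 8 : ℝ) = (t / t') ^ (1 / 8 : ℝ) * (t' / s) ^ (1 / 8 : ℝ) := by
      rw [← Real.mul_rpow (by positivity) (by positivity)]
      congr 1
      field_simp
    rw [this]
    ring
  rw [e2, e1]
  refine mul_le_mul_of_nonneg_left (by linarith) (Real.rpow_nonneg (by positivity) _)

end real

variable {M : Type u} [MetricSpace M] [CompleteSpace M] [SecondCountableTopology M]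
  [MeasurableSpace M] [BorelSpace M] {m : Measure M} {n : ℕ} {K A : ℝ} {o : M}
  {p : ℝ → M → M → ℝ}

/-- comparison of the values of `ν_y` -/
theorem nuF_le (h : H71.HypL m n K) (y : M) {φ ψ : M →ₘ[m] ℝ} (hφ : φ ∈ (sob m).W)
    (hφ1 : MemLp φ 1 m) (hψ : ψ ∈ (sob m).W) (hψ1 : MemLp ψ 1 m) {c : ℝ}
    (hle : ∀ᵐ x ∂m, φ x ≤ c * ψ x) : H71.nuF m n K y φ ≤ c * H71.nuF m n K y ψ := by
  obtain ⟨θ, t⟩ := nsp_of h
  have hC := t.isDir
  have hW := hC.smul_mem c _ hψ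
  have h1 := Drop.nuF_mono t (κ := |K| + 1) (by have := abs_nonneg K; linarith)
    (by norm_num : (0 : ℝ) < 1 / 2) y hφ hW (by
      filter_upwards [hle, smul_ae (f := ψ) c] with x a1 a2 _
      rw [a2]
      exact a1)
  rw [Drop.nuF_smul t (by norm_num : (0 : ℝ) < 1 / 2) y c hψ] at h1
  have hi : Integrable φ m := memLp_one_iff_integrable.1 hφ1
  have hj : Integrable ψ m := memLp_one_iff_integrable.1 hψ1
  have h2 : ∫ x in {x | gg y x < 1 / 2}ᶜ, φ x ∂m ≤ c * ∫ x in {x | gg y x < 1 / 2}ᶜ, ψ x ∂m := by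
    rw [← integral_const_mul]
    exact integral_mono_ae hi.integrableOn (hj.const_mul c).integrableOn (ae_restrict_of_ae hle)
  rw [nuF_split t y hφ1, nuF_split t y hψ1]
  have h3 := mul_le_mul_of_nonneg_left h2 (by positivity : 0 ≤ (n : ℝ) + (|K| + 1) / 2)
  linarith

/-- **Harnack inequality for `ν`** -/
theorem nu_harnack (e : H71.Env m n K o A p) (v : M) {Γ C₀ s s' : ℝ} {x y : M} (hs : 0 < s)
    (h1 : 4 * A ^ 2 * s ≤ s') (h2 : s' ≤ Γ * s) (h3 : s' ≤ 1 / 2) (hx : dist x y ≤ C₀ * √s) :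
    H71.nu m n K p v s x ≤ cG n A Γ C₀ * Real.exp (2 * A * dist x o) * H71.nu m n K p v s' y := by
  have hC := (isGamma_of e.hyp).toIsDir
  have hA := e.kb.one_le
  have hs' : 0 < s' := lt_of_lt_of_le (by positivity) h1
  refine nuF_le e.hyp v (ph_mem hC e.ker hs x) (ph_mem1 e.ker hs x) (ph_mem hC e.ker hs' y)
    (ph_mem1 e.ker hs' y) ?_
  filter_upwards [ph_ae e.ker hs x, ph_ae e.ker hs' y] with z a1 a2
  rw [a1, a2]
  exact e.kb.p_le hs h1 h2 h3 hx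

/-- `D_t ≥ 0` part and the floor -/
theorem dt_eq (Q A₀ ρ t : ℝ) (y : M) : H71.Dt m n K p Q A₀ ρ t y
    = EE (fun s => H71.nu m n K p y s y / s) (Q * ρ ^ 2) t + A₀ * (t / ρ ^ 2) ^ (1 / 8 : ℝ) := rfl

theorem nu_div_cont (e : H71.Env m n K o A p) (x : M) :
    ContinuousOn (fun s => H71.nu m n K p x s x / s) (Ioi 0) :=
  (nu_cont e x x).div continuousOn_id fun s hs => ne_of_gt hs

theorem nu_div_nonneg (e : H71.Env m n K o A p) (x : M) (s : ℝ) (hs : 0 < s) :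
    0 ≤ H71.nu m n K p x s x / s := div_nonneg (nu_nonneg e x x hs) hs.le

/-- the integral part of `D_t` is nonnegative -/
theorem dt_ge_floor (e : H71.Env m n K o A p) {Q A₀ ρ t : ℝ} (ht : 0 < t) (htT : t ≤ Q * ρ ^ 2)
    (y : M) : A₀ * (t / ρ ^ 2) ^ (1 / 8 : ℝ) ≤ H71.Dt m n K p Q A₀ ρ t y := by
  rw [dt_eq]
  have := ee_nonneg (nu_div_nonneg e y) ht htT
  linarith

theorem dt_nonneg (e : H71.Env m n K o A p) {Q A₀ ρ t : ℝ} (hA : 0 ≤ A₀) (ht : 0 < t)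
    (htT : t ≤ Q * ρ ^ 2) (y : M) : 0 ≤ H71.Dt m n K p Q A₀ ρ t y :=
  le_trans (mul_nonneg hA (Real.rpow_nonneg (by positivity) _)) (dt_ge_floor e ht htT y)

/-- `t^{-1/8} D_t` is nonincreasing -/
theorem dt_mono (e : H71.Env m n K o A p) {Q A₀ ρ t t' : ℝ} (hρ : 0 < ρ) (ht' : 0 < t')
    (htt : t' ≤ t) (htT : t ≤ Q * ρ ^ 2) (y : M) :
    H71.Dt m n K p Q A₀ ρ t y ≤ (t / t') ^ (1 / 8 : ℝ) * H71.Dt m n K p Q A₀ ρ t' y := by
  rw [dt_eq, dt_eq]
  have h1 := ee_mono (nu_div_cont e y) (nu_div_nonneg e y) ht' htt htT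
  have ht : 0 < t := lt_of_lt_of_le ht' htt
  have h2 : (t / ρ ^ 2) ^ (1 / 8 : ℝ) = (t / t') ^ (1 / 8 : ℝ) * (t' / ρ ^ 2) ^ (1 / 8 : ℝ) := by
    rw [← Real.mul_rpow (by positivity) (by positivity)]
    congr 1
    field_simp
  rw [h2]
  linarith

/-- `D_t ≤ δ + A₀` for `t ≤ ρ²` -/
theorem dt_le (e : H71.Env m n K o A p) {R Q δ A₀ ρ t : ℝ} (hQ : 1 ≤ Q) (hρ : 0 < ρ)
    (hA₀ : 0 ≤ A₀) (hD : H71.DropS m n K o p R Q δ ρ) {x : M} (hx : x ∈ Metric.ball o (R * ρ))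
    (ht : 0 < t) (htρ : t ≤ ρ ^ 2) : H71.Dt m n K p Q A₀ ρ t x ≤ δ + A₀ := by
  have hρ2 : 0 < ρ ^ 2 := by positivity
  have htT : t ≤ Q * ρ ^ 2 := htρ.trans (le_mul_of_one_le_left hρ2.le hQ)
  rw [dt_eq]
  have h1 := ee_le (nu_div_cont e x) (nu_div_nonneg e x) ht htT
  have h2 := hD x hx t ht htT
  have h3 : (t / ρ ^ 2) ^ (1 / 8 : ℝ) ≤ 1 := rpow_ratio_le_one ht htρ
  have h4 := mul_le_mul_of_nonneg_left h3 hA₀
  linarith

/-- one step of the grid `t, t Λ⁻²`: `D_t ≤ Λ^{1/4} D_{t/Λ²}` -/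
theorem dt_step (e : H71.Env m n K o A p) {Q A₀ ρ t Λ : ℝ} (hρ : 0 < ρ) (hΛ : 1 ≤ Λ)
    (ht : 0 < t) (htT : t ≤ Q * ρ ^ 2) (y : M) :
    H71.Dt m n K p Q A₀ ρ t y ≤ Λ ^ (1 / 4 : ℝ) * H71.Dt m n K p Q A₀ ρ (t / Λ ^ 2) y := by
  have h0 : 0 < Λ := by linarith
  have h1 := dt_mono (A₀ := A₀) e hρ (by positivity : 0 < t / Λ ^ 2)
    (div_le_self ht.le (one_le_pow₀ hΛ)) htT y
  have h2 : (t / (t / Λ ^ 2)) ^ (1 / 8 : ℝ) = Λ ^ (1 / 4 : ℝ) := by
    have : t / (t / Λ ^ 2) = Λ ^ 2 := by field_simp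
    rw [this, ← Real.rpow_natCast, ← Real.rpow_mul h0.le]
    norm_num
  rwa [h2] at h1

/-- **`ν ≤ C D`**: for `s` comparable with `t` and `x` near the vertex `y`. -/
theorem nu_le_dt (e : H71.Env m n K o A p) {C₀ c₁ C₁ : ℝ} (hC₀ : 0 ≤ C₀) (hc₁ : 0 < c₁)
    (hcC : c₁ ≤ C₁) : ∃ B Λ₁ : ℝ, 1 ≤ B ∧ 1 ≤ Λ₁ ∧ ∀ (x y : M) (t s Q A₀ ρ : ℝ), dist x o ≤ 1 →
    0 < t → c₁ * t ≤ s → s ≤ C₁ * t → Λ₁ * t ≤ Q * ρ ^ 2 → Q * ρ ^ 2 ≤ 1 / 2 → 0 ≤ A₀ →
    dist x y ≤ C₀ * √t →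
    H71.nu m n K p y s x ≤ B * ∫ s' in t..Q * ρ ^ 2, (t / s') ^ (1 / 8 : ℝ)
      * (H71.nu m n K p y s' y / s') ∧
    H71.nu m n K p y s x ≤ B * H71.Dt m n K p Q A₀ ρ t y := by
  have hA := e.kb.one_le
  have hA0 := e.kb.pos
  have hC₁ : 0 < C₁ := hc₁.trans_le hcC
  set L : ℝ := max (4 * A ^ 2 * C₁) 1 with hL
  have hL1 : 1 ≤ L := le_max_right _ _
  set Γ : ℝ := max (8 * A ^ 2) (2 / c₁) with hΓ
  have hΓ0 : 0 < Γ := lt_of_lt_of_le (by positivity) (le_max_left _ _)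
  set c : ℝ := cG n A Γ (C₀ / √c₁) * Real.exp (2 * A) with hc
  have hc0 : 0 < c := mul_pos (cG_pos hA hΓ0) (Real.exp_pos _)
  refine ⟨max 1 (4 * L * c), 2 * L, le_max_left _ _, by linarith, ?_⟩
  intro x y t s Q A₀ ρ hx ht hs1 hs2 hT hT2 hA₀ hxy
  have hs : 0 < s := lt_of_lt_of_le (by positivity) hs1
  set a : ℝ := max (4 * A ^ 2 * s) t with ha
  have hta : t ≤ a := le_max_right _ _
  have hsa : 4 * A ^ 2 * s ≤ a := le_max_left _ _
  have haL : a ≤ L * t := by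
    refine max_le ?_ ?_
    · calc 4 * A ^ 2 * s ≤ 4 * A ^ 2 * (C₁ * t) := by gcongr
        _ = 4 * A ^ 2 * C₁ * t := by ring
        _ ≤ L * t := mul_le_mul_of_nonneg_right (le_max_left _ _) ht.le
    · exact le_mul_of_one_le_left ht.le hL1
  have haΓ : 2 * a ≤ Γ * s := by
    have h1 : 2 * (4 * A ^ 2 * s) ≤ Γ * s := by
      calc 2 * (4 * A ^ 2 * s) = 8 * A ^ 2 * s := by ring
        _ ≤ _ := mul_le_mul_of_nonneg_right (le_max_left _ _) hs.le
    have h2 : 2 * t ≤ Γ * s := by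
      calc 2 * t = 2 / c₁ * (c₁ * t) := by field_simp
        _ ≤ 2 / c₁ * s := by gcongr
        _ ≤ _ := mul_le_mul_of_nonneg_right (le_max_right _ _) hs.le
    rw [ha, mul_max_of_nonneg _ _ (by norm_num : (0 : ℝ) ≤ 2)]
    exact max_le h1 h2
  have haT : 2 * a ≤ Q * ρ ^ 2 := by linarith
  have hdist : dist x y ≤ C₀ / √c₁ * √s := by
    refine hxy.trans ?_
    have h1 : √t ≤ √s / √c₁ := by
      rw [le_div_iff₀ (Real.sqrt_pos.2 hc₁), ← Real.sqrt_mul ht.le]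
      exact Real.sqrt_le_sqrt (by linarith)
    calc C₀ * √t ≤ C₀ * (√s / √c₁) := by gcongr
      _ = _ := by ring
  have hν : 0 ≤ H71.nu m n K p y s x := nu_nonneg e y x hs
  have hkey : ∀ s', a ≤ s' → s' ≤ 2 * a →
      H71.nu m n K p y s x / c ≤ s' * (H71.nu m n K p y s' y / s') := by
    intro s' h1 h2
    have hs' : 0 < s' := lt_of_lt_of_le (lt_of_lt_of_le ht hta) h1
    rw [mul_div_cancel₀ _ hs'.ne', div_le_iff₀ hc0, mul_comm]
    refine (nu_harnack e y hs (hsa.trans h1) (h2.trans haΓ) ((h2.trans haT).trans hT2) hdist).trans ?_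
    refine mul_le_mul_of_nonneg_right ?_ (nu_nonneg e y y hs')
    refine mul_le_mul_of_nonneg_left (Real.exp_le_exp.2 ?_) (cG_pos hA hΓ0).le
    exact mul_le_of_le_one_right (by positivity) hx
  have hw := ee_window (nu_div_cont e y) (nu_div_nonneg e y) ht hta haT (by positivity) hkey
  have hE := ee_nonneg (nu_div_nonneg e y) ht (hta.trans (by linarith) : t ≤ Q * ρ ^ 2)
  have h1 : H71.nu m n K p y s x ≤ max 1 (4 * L * c)
      * EE (fun s => H71.nu m n K p y s y / s) (Q * ρ ^ 2) t := by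
    rw [div_le_iff₀ hc0] at hw
    have h2 : a / t ≤ L := by
      rw [div_le_iff₀ ht]
      exact haL
    have h3 : 4 * (a / t) * EE (fun s => H71.nu m n K p y s y / s) (Q * ρ ^ 2) t * c
        ≤ 4 * L * c * EE (fun s => H71.nu m n K p y s y / s) (Q * ρ ^ 2) t := by
      have := mul_le_mul_of_nonneg_right h2 (by positivity :
        0 ≤ 4 * c * EE (fun s => H71.nu m n K p y s y / s) (Q * ρ ^ 2) t)
      linarith
    have h4 := mul_le_mul_of_nonneg_right (le_max_right 1 (4 * L * c)) hE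
    linarith
  refine ⟨h1, h1.trans ?_⟩
  rw [dt_eq]
  refine mul_le_mul_of_nonneg_left ?_ (by positivity)
  have : 0 ≤ A₀ * (t / ρ ^ 2) ^ (1 / 8 : ℝ) :=
    mul_nonneg hA₀ (Real.rpow_nonneg (by positivity) _)
  linarith

end Vale.Agent.P242.H744
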