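import Vale.Agent.P242.H744.DropC

/-!
P242, block VolDrop, part D: the sum over scales of the values of `ν_y` on Gaussians.
-/

set_option linter.all false

open MeasureTheory Filter Topology Set
open scoped ENNReal NNReal MeasureTheory

universe u

namespace Vale.Agent.P242.H744.Drop

open Vale.Agent.P233 Vale.Agent.P233.N2 Vale.Agent.P233.N2.RA

/-- truncated exponential profile, as a function of `w = g - δ` -/
noncomputable def eg (a c δ s : ℝ) (t : ℝ) : ℝ :=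
  a * (Real.exp (-(c * (t + δ) / s)) - Real.exp (-(c * δ / s)))

noncomputable def eg' (a c δ s : ℝ) (t : ℝ) : ℝ :=
  -(a * (c / s)) * Real.exp (-(c * (t + δ) / s))

theorem eg_cont (a c δ s : ℝ) : Continuous (eg a c δ s) := by
  unfold eg
  exact continuous_const.mul ((Real.continuous_exp.comp (by fun_prop)).sub continuous_const)

theorem eg'_cont (a c δ s : ℝ) : Continuous (eg' a c δ s) := by
  unfold eg'
  exact continuous_const.mul (Real.continuous_exp.comp (by fun_prop))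

theorem eg_deriv (a c δ s t : ℝ) : HasDerivAt (eg a c δ s) (eg' a c δ s t) t := by
  have h1 : HasDerivAt (fun t => -(c * (t + δ) / s)) (-(c / s)) t := by
    have := ((((hasDerivAt_id t).add_const δ).const_mul c).div_const s).neg
    refine this.congr_deriv ?_
    simp
  have h2 := ((h1.exp).sub_const (Real.exp (-(c * δ / s)))).const_mul a
  refine h2.congr_deriv ?_
  unfold eg'
  ring

theorem eg_zero (a c δ s : ℝ) : eg a c δ s 0 = 0 := by
  unfold eg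
  rw [zero_add, sub_self, mul_zero]

theorem eg_nonneg {a c δ s t : ℝ} (ha : 0 ≤ a) (hc : 0 ≤ c) (hs : 0 < s) (ht : t ≤ 0) :
    0 ≤ eg a c δ s t := by
  unfold eg
  refine mul_nonneg ha (sub_nonneg.2 (Real.exp_le_exp.2 (neg_le_neg ?_)))
  refine div_le_div_of_nonneg_right (mul_le_mul_of_nonneg_left (by linarith) hc) hs.le

/-- on `{g < δ}` the profile with cutoff `2 δ` is comparable with the exponential -/
theorem le_eg {a c δ s g : ℝ} (ha : 0 ≤ a) (hc : 0 < c) (hs : 0 < s) (hsδ : s ≤ c * δ)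
    (hg : g ≤ δ) :
    a / 2 * Real.exp (-(c * g / s)) ≤ eg a c (2 * δ) s (g - 2 * δ) := by
  unfold eg
  rw [sub_add_cancel]
  have h1 : Real.exp (-(c * (2 * δ) / s)) ≤ 1 / 2 * Real.exp (-(c * g / s)) := by
    have h2 : Real.exp (-(c * (2 * δ) / s)) ≤ Real.exp (-1) * Real.exp (-(c * g / s)) := by
      rw [← Real.exp_add]
      apply Real.exp_le_exp.2
      have h3 : 1 ≤ c * δ / s := by rw [le_div_iff₀ hs]; linarith
      have h4 : c * g / s ≤ c * δ / s := by gcongr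
      have h5 : c * (2 * δ) / s = c * δ / s + c * δ / s := by ring
      rw [h5]
      linarith
    have h6 : Real.exp (-1) ≤ 1 / 2 := by
      rw [Real.exp_neg, one_div]
      apply inv_anti₀ (by norm_num)
      have := Real.add_one_le_exp (1 : ℝ)
      linarith
    exact h2.trans (mul_le_mul_of_nonneg_right h6 (Real.exp_pos _).le)
  nlinarith

theorem eg_le {a c δ s g : ℝ} (ha : 0 ≤ a) :
    eg a c δ s (g - δ) ≤ a * Real.exp (-(c * g / s)) := by
  unfold eg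
  rw [sub_add_cancel]
  have := Real.exp_pos (-(c * δ / s))
  nlinarith

variable {M : Type u} [MetricSpace M] [MeasurableSpace M] [BorelSpace M]
  [SecondCountableTopology M] {m : Measure M}
  {n : ℕ} {K : ℝ} {θ : M → ℝ} {δ κ : ℝ}

theorem sum_range_ae (Φ : ℕ → M →ₘ[m] ℝ) (J : ℕ) :
    ∀ᵐ x ∂m, (∑ j ∈ Finset.range J, Φ j : M →ₘ[m] ℝ) x = ∑ j ∈ Finset.range J, Φ j x := by
  induction J with
  | zero =>
    filter_upwards [zero_ae (M := M) (m := m)] with x hx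
    rw [Finset.sum_range_zero, Finset.sum_range_zero, hx]
  | succ J ih =>
    filter_upwards [ih, add_ae (∑ j ∈ Finset.range J, Φ j) (Φ J)] with x h1 h2
    rw [Finset.sum_range_succ, Finset.sum_range_succ, h2, h1]

/-- dyadic majorant, `a = 2 A 2^n σ_j^{-n}` -/
noncomputable def PhiE (m : Measure M) (a c δ s : ℝ) (y : M) : M →ₘ[m] ℝ :=
  AEEqFun.comp (eg a c (2 * δ) s) (eg_cont a c (2 * δ) s) (cl m (ww (2 * δ) y))

theorem PhiE_facts (h : N2.RA.NSp m n K θ) (hδ : 0 < δ) {a c s : ℝ} (ha : 0 ≤ a) (hc : 0 < c)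
    (hs : 0 < s) (hsδ : s ≤ c * δ) (y : M) :
    PhiE m a c δ s y ∈ (sob m).W ∧ 0 ≤ PhiE m a c δ s y ∧
    (∀ᵐ x ∂m, gg y x < δ → a / 2 * Real.exp (-(c * gg y x / s)) ≤ PhiE m a c δ s y x ∧
      PhiE m a c δ s y x ≤ a * Real.exp (-(c * gg y x / s))) := by
  have hδ2 : 0 < 2 * δ := by positivity
  obtain ⟨h1, h2, h3⟩ := nuF_radial (κ := 0) h hδ hδ2 y (eg_cont a c (2 * δ) s)
    (eg'_cont a c (2 * δ) s) (fun t _ => (eg_deriv a c (2 * δ) s t).hasDerivWithinAt)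
    (eg_zero a c (2 * δ) s)
  refine ⟨h1, ?_, ?_⟩
  · rw [nonneg_iff_ae]
    filter_upwards [h2] with x hx
    change 0 ≤ (AEEqFun.comp (eg a c (2 * δ) s) _ (cl m (ww (2 * δ) y))) x
    rw [hx]
    exact eg_nonneg ha hc.le hs (H982.ww_nonpos _ y x)
  · filter_upwards [h2] with x hx hx'
    change _ ≤ (AEEqFun.comp (eg a c (2 * δ) s) _ (cl m (ww (2 * δ) y))) x ∧
      (AEEqFun.comp (eg a c (2 * δ) s) _ (cl m (ww (2 * δ) y))) x ≤ _
    rw [hx, H982.ww_of_lt (by linarith : gg y x < 2 * δ)]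
    exact ⟨le_eg ha hc hs hsδ hx'.le, eg_le ha⟩

/-- the function `X = -δ⁻¹ w_{2δ}`, `≥ 1` on `{g < δ}` -/
theorem nuF_X (h : N2.RA.NSp m n K θ) (hκ : 0 ≤ κ) (hδ : 0 < δ) (y : M) :
    (-δ⁻¹) • cl m (ww (2 * δ) y) ∈ (sob m).W ∧
    (∀ᵐ x ∂m, 0 ≤ ((-δ⁻¹) • cl m (ww (2 * δ) y) : M →ₘ[m] ℝ) x ∧
      (gg y x < δ → 1 ≤ ((-δ⁻¹) • cl m (ww (2 * δ) y) : M →ₘ[m] ℝ) x)) ∧
    nuF m n κ δ y ((-δ⁻¹) • cl m (ww (2 * δ) y))
      ≤ 2 * (n + κ * δ) * (m (Metric.ball y √(2 * δ))).toReal := by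
  have hC := h.isDir
  have hδ2 : 0 < 2 * δ := by positivity
  have hW := (H982.ww_A (m := m) h.fin hδ2.le y).1
  have hWδ := (H982.ww_A (m := m) h.fin hδ.le y).1
  refine ⟨hC.smul_mem _ _ hW, ?_, ?_⟩
  · filter_upwards [smul_ae (f := cl m (ww (2 * δ) y)) (-δ⁻¹), H982.ww_ae (m := m) hδ2.le y]
      with x a1 a2
    rw [a1, a2]
    have h1 := H982.ww_nonpos (2 * δ) y x
    have h2 := inv_pos.2 hδ
    refine ⟨by nlinarith, fun hx => ?_⟩
    rw [H982.ww_of_lt (by linarith : gg y x < 2 * δ)]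
    have h3 : -δ⁻¹ * (gg y x - 2 * δ) = (2 * δ - gg y x) * δ⁻¹ := by ring
    rw [h3, ← div_eq_mul_inv, le_div_iff₀ hδ]
    linarith
  · rw [nuF_smul h hδ y _ hW]
    have hms := H982.measurableSet_gg δ y
    have hb : {x : M | gg y x < δ} = Metric.ball y √(2 * δ) := ball_eq y hδ.le
    have hG : 0 ≤ I ((sob m).Γ (cl m (ww δ y)) (cl m (ww (2 * δ) y))) := by
      refine integral_nonneg_of_ae ?_
      filter_upwards [Γ_ww_ww h hδ hδ2 y] with x hx
      rw [Pi.zero_apply, hx]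
      split_ifs
      · have := H982.gg_nonneg y x; positivity
      · exact le_rfl
    have hfin : m {x | gg y x < δ} < ∞ := by rw [hb]; exact h.fin y _
    have hfm : IsFiniteMeasure (m.restrict {x | gg y x < δ}) :=
      ⟨by rw [Measure.restrict_apply_univ]; exact hfin⟩
    have hE : -(2 * δ * (n + κ * δ) * (m (Metric.ball y √(2 * δ))).toReal)
        ≤ ∫ x in {x | gg y x < δ}, ((n : ℝ) + κ * gg y x) * (cl m (ww (2 * δ) y)) x ∂m := by
      have e1 : ∫ x in {x | gg y x < δ}, (-(2 * δ * (n + κ * δ)) : ℝ) ∂m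
          = -(2 * δ * (n + κ * δ) * (m (Metric.ball y √(2 * δ))).toReal) := by
        rw [setIntegral_const, smul_eq_mul, hb]
        change (m (Metric.ball y √(2 * δ))).toReal * _ = _
        ring
      rw [← e1]
      refine integral_mono_ae (integrable_const _) (nuF_int h y hW) ?_
      filter_upwards [ae_restrict_of_ae (H982.ww_ae (m := m) hδ2.le y), ae_restrict_mem hms]
        with x a1 a2
      have a3 : gg y x < δ := a2
      rw [a1, H982.ww_of_lt (by linarith : gg y x < 2 * δ)]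
      have h0 := H982.gg_nonneg y x
      have h1 : 0 ≤ κ * gg y x := by positivity
      have h2 : κ * gg y x ≤ κ * δ := by gcongr
      have h4 : ((n : ℝ) + κ * gg y x) * (2 * δ - gg y x) ≤ (n + κ * δ) * (2 * δ) := by
        refine mul_le_mul (by linarith) (by linarith) (by linarith) (by positivity)
      linarith
    unfold nuF
    have h2 := inv_pos.2 hδ
    have h5 : -(2 * δ * (n + κ * δ) * (m (Metric.ball y √(2 * δ))).toReal)
        ≤ ∫ x in {x | gg y x < δ}, ((n : ℝ) + κ * gg y x) * (cl m (ww (2 * δ) y)) x ∂m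
          + I ((sob m).Γ (cl m (ww δ y)) (cl m (ww (2 * δ) y))) := by linarith
    have h6 := mul_le_mul_of_nonneg_left h5 h2.le
    have h7 : δ⁻¹ * -(2 * δ * (n + κ * δ) * (m (Metric.ball y √(2 * δ))).toReal)
        = -(2 * (n + κ * δ) * (m (Metric.ball y √(2 * δ))).toReal) := by
      field_simp
    rw [h7] at h6
    linarith

/-- lower bound of the test function near the centre -/
theorem PhiR_lower {n : ℕ} (hn : 2 ≤ n) {g r δ₁ : ℝ} (hg : 0 ≤ g) (hg1 : g ≤ δ₁ / 2) (hr : 0 < r)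
    (hδ₁ : 0 < δ₁) (hr1 : r ^ 2 ≤ δ₁) :
    (√(2 * g + r ^ 2))⁻¹ ^ n
      ≤ 3 * ((√(2 * g + r ^ 2))⁻¹ ^ n - (√(2 * δ₁ + r ^ 2))⁻¹ ^ n) := by
  set a : ℝ := √(2 * g + r ^ 2) with ha
  set b : ℝ := √(2 * δ₁ + r ^ 2) with hb
  have ha0 : 0 < a := Real.sqrt_pos.2 (by positivity)
  have hb0 : 0 < b := Real.sqrt_pos.2 (by positivity)
  have ha2 : a ^ 2 = 2 * g + r ^ 2 := Real.sq_sqrt (by positivity)
  have hb2 : b ^ 2 = 2 * δ₁ + r ^ 2 := Real.sq_sqrt (by positivity)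
  have hab : a ≤ b := Real.sqrt_le_sqrt (by linarith)
  have h1 : (a / b) ^ 2 ≤ 2 / 3 := by
    rw [div_pow, ha2, hb2, div_le_iff₀ (by positivity)]
    linarith
  have h2 : (a / b) ^ n ≤ (a / b) ^ 2 :=
    pow_le_pow_of_le_one (by positivity) (by rw [div_le_one hb0]; exact hab) hn
  have h3 : b⁻¹ ^ n = a⁻¹ ^ n * (a / b) ^ n := by
    rw [← mul_pow]
    congr 1
    field_simp
  rw [h3]
  have h4 : 0 < a⁻¹ ^ n := by positivity
  nlinarith

/-- constants of `drop_sum` -/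
noncomputable def C1 (n : ℕ) (c : ℝ) : ℝ := 36 * 2 ^ n * Cg n c * Real.exp (c / 2)

noncomputable def C2 (n : ℕ) (c : ℝ) : ℝ := 8 * 2 ^ n * (n + 1).factorial * (c / 2)⁻¹ ^ (n + 1)

/-- **VolDrop**: the values of `ν_y` on Gaussians of all dyadic scales are summable, with sum
bounded by the drop of the volume ratio. -/
theorem drop_sum (h : N2.RA.NSp m n K θ) (hκ : 2 * |K| / 3 ≤ κ) (hn : 2 ≤ n) (hδ : 0 < δ)
    {δ₁ A c σ Θ : ℝ} (hδ₁ : 0 < δ₁) (hle : δ₁ ≤ δ) (hA : 0 < A) (hc : 0 < c) (hσ : 0 < σ)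
    (hσ1 : σ ^ 2 ≤ δ₁) (hσ2 : σ ^ 2 ≤ c * δ) (y : M)
    (hΘ : ∀ t, 0 < t → t ≤ √(2 * δ₁) → (m (Metric.ball y t)).toReal ≤ Θ * t ^ n) :
    ∃ Q : ℕ → ℝ, (∀ j, 0 ≤ Q j) ∧
      (∀ (j : ℕ) (s : ℝ) (φ : M →ₘ[m] ℝ), (σ / 2 ^ (j + 1)) ^ 2 < s → s ≤ (σ / 2 ^ j) ^ 2 →
        φ ∈ (sob m).W →
        (∀ᵐ x ∂m, gg y x < δ → φ x ≤ A * (√s)⁻¹ ^ n * Real.exp (-(c * gg y x / s))) →
        nuF m n κ δ y φ ≤ Q j) ∧
      ∀ J, ∑ j ∈ Finset.range J, Q j ≤ A * (C1 n c *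
        (n * (Θ - (m (Metric.ball y √(2 * δ₁))).toReal / √(2 * δ₁) ^ n)
          + κ / 2 * (Θ * (2 * δ₁) * (n / 2) + Θ * σ ^ 2))
        + C2 n c * (n + κ * δ) * (m (Metric.ball y √(2 * δ))).toReal
          * (σ ^ (n + 2) * δ₁⁻¹ ^ (n + 1))) := by
  have hC := h.isDir
  have hκ0 : 0 ≤ κ := le_trans (by positivity) hκ
  have hσj : ∀ j : ℕ, 0 < σ / 2 ^ j := fun j => by positivity
  have hσle : ∀ j : ℕ, σ / 2 ^ j ≤ σ := fun j =>
    div_le_self hσ.le (one_le_pow₀ (by norm_num))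
  have hσj2 : ∀ j : ℕ, (σ / 2 ^ j) ^ 2 ≤ σ ^ 2 := fun j =>
    pow_le_pow_left₀ (hσj j).le (hσle j) 2
  set a : ℕ → ℝ := fun j => 2 * A * 2 ^ n * (σ / 2 ^ j)⁻¹ ^ n with ha
  have ha0 : ∀ j, 0 ≤ a j := fun j => by
    have := hσj j
    simp only [ha]
    positivity
  have hF : ∀ j : ℕ, _ := fun j => PhiE_facts h hδ (ha0 j) hc (pow_pos (hσj j) 2)
    ((hσj2 j).trans hσ2) y
  set Φ : ℕ → M →ₘ[m] ℝ := fun j => PhiE m (a j) c δ ((σ / 2 ^ j) ^ 2) y with hΦ
  refine ⟨fun j => nuF m n κ δ y (Φ j), fun j => nuF_nonneg h hκ hδ y (hF j).1 (hF j).2.1, ?_, ?_⟩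
  · intro j s φ hs1 hs2 hφ hφA
    refine nuF_mono h hκ hδ y hφ (hF j).1 ?_
    filter_upwards [hφA, (hF j).2.2] with x h1 h2 hx
    refine (h1 hx).trans (le_trans ?_ (h2 hx).1)
    have hs0 : 0 < s := lt_of_le_of_lt (sq_nonneg _) hs1
    have e1 : a j / 2 = A * (2 ^ n * (σ / 2 ^ j)⁻¹ ^ n) := by simp only [ha]; ring
    rw [e1]
    have e2 : (√s)⁻¹ ^ n ≤ 2 ^ n * (σ / 2 ^ j)⁻¹ ^ n := by
      rw [← mul_pow]
      refine pow_le_pow_left₀ (by positivity) ?_ n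
      have e3 : σ / 2 ^ (j + 1) ≤ √s := Real.le_sqrt_of_sq_le hs1.le
      have e4 : (2 : ℝ) * (σ / 2 ^ j)⁻¹ = (σ / 2 ^ (j + 1))⁻¹ := by
        rw [pow_succ]; field_simp
      rw [e4]
      exact inv_anti₀ (hσj (j + 1)) e3
    have e5 : Real.exp (-(c * gg y x / s)) ≤ Real.exp (-(c * gg y x / (σ / 2 ^ j) ^ 2)) := by
      apply Real.exp_le_exp.2
      apply neg_le_neg
      have := H982.gg_nonneg y x
      gcongr
    gcongr
  · intro J
    obtain ⟨hs1, hs2⟩ := nuF_sum (κ := κ) h hδ y (Finset.range J) (φ := Φ) fun j _ => (hF j).1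
    rw [← hs2]
    set r : ℝ := σ / 2 ^ J with hr
    have hr0 : 0 < r := hσj J
    have hr1 : r ^ 2 ≤ δ₁ := (hσj2 J).trans hσ1
    obtain ⟨p1, p2, p3, p4⟩ := nuF_PhiR h hκ0 hn hδ hδ₁ hle hr0 y hΘ
    obtain ⟨x1, x2, x3⟩ := nuF_X (n := n) h hκ0 hδ y
    set X : M →ₘ[m] ℝ := (-δ⁻¹) • cl m (ww (2 * δ) y) with hX
    set D1 : ℝ := 2 * A * 2 ^ n * (6 * Cg n c * Real.exp (c / 2)) * 3 with hD1
    set D2 : ℝ := 2 * A * 2 ^ n * (2 * (n + 1).factorial * (c * (δ₁ / 2))⁻¹ ^ (n + 1)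
      * σ ^ (n + 2)) with hD2
    have hCg := Cg_pos n hc
    have hD10 : 0 ≤ D1 := by positivity
    have hD20 : 0 ≤ D2 := by positivity
    have hmaj : nuF m n κ δ y (∑ j ∈ Finset.range J, Φ j)
        ≤ nuF m n κ δ y (D1 • PhiR m n hr0 δ₁ y + D2 • X) := by
      refine nuF_mono h hκ hδ y hs1 (hC.add_mem _ (hC.smul_mem _ _ p1) _ (hC.smul_mem _ _ x1)) ?_
      have hsum : ∀ᵐ x ∂m, (∑ j ∈ Finset.range J, Φ j : M →ₘ[m] ℝ) x
          = ∑ j ∈ Finset.range J, Φ j x := sum_range_ae Φ J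
      have hall : ∀ᵐ x ∂m, ∀ j : ℕ, gg y x < δ →
          Φ j x ≤ a j * Real.exp (-(c * gg y x / (σ / 2 ^ j) ^ 2)) := by
        rw [ae_all_iff]
        intro j
        filter_upwards [(hF j).2.2] with x hx hx'
        exact (hx hx').2
      filter_upwards [hsum, hall, p2, p3, x2, add_ae (D1 • PhiR m n hr0 δ₁ y) (D2 • X),
        smul_ae (f := PhiR m n hr0 δ₁ y) D1, smul_ae (f := X) D2] with x y1 y2 y3 y4 y5 y6 y7 y8 hx
      rw [y1, y6, y7, y8]
      have hg0 := H982.gg_nonneg y x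
      have z1 : ∑ j ∈ Finset.range J, Φ j x ≤ 2 * A * 2 ^ n * ∑ j ∈ Finset.range J,
          (σ / 2 ^ j)⁻¹ ^ n * Real.exp (-(c * gg y x / (σ / 2 ^ j) ^ 2)) := by
        rw [Finset.mul_sum]
        refine Finset.sum_le_sum fun j _ => (y2 j hx).trans (le_of_eq ?_)
        simp only [ha]
        ring
      have hPhi0 : 0 ≤ PhiR m n hr0 δ₁ y x := by
        rcases lt_or_ge (gg y x) δ₁ with h1 | h1
        · rw [y3 h1, sub_nonneg]
          refine pow_le_pow_left₀ (by positivity) (inv_anti₀ (qq_pos hr0 _) ?_) n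
          unfold qq
          refine Real.sqrt_le_sqrt ?_
          unfold gg at h1
          linarith
        · rw [y4 h1]
      have hX0 := y5.1
      rcases le_or_gt (gg y x) (δ₁ / 2) with h1 | h1
      · have z2 := sum_gauss_le (by omega : 1 ≤ n) hc hσ J hg0
        have z3 := PhiR_lower hn hg0 h1 hr0 hδ₁ hr1
        have z4 : PhiR m n hr0 δ₁ y x
            = (√(2 * gg y x + r ^ 2))⁻¹ ^ n - (√(2 * δ₁ + r ^ 2))⁻¹ ^ n := by
          rw [y3 (by linarith)]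
          unfold qq gg
          congr 4
          ring
        rw [z4]
        have z5 : D1 * ((√(2 * gg y x + r ^ 2))⁻¹ ^ n - (√(2 * δ₁ + r ^ 2))⁻¹ ^ n)
            = 2 * A * 2 ^ n * (6 * Cg n c * Real.exp (c / 2)) *
              (3 * ((√(2 * gg y x + r ^ 2))⁻¹ ^ n - (√(2 * δ₁ + r ^ 2))⁻¹ ^ n)) := by
          rw [hD1]; ring
        rw [z5]
        have z6 := mul_le_mul_of_nonneg_left z3
          (by positivity : 0 ≤ 2 * A * 2 ^ n * (6 * Cg n c * Real.exp (c / 2)))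
        have z7 := mul_le_mul_of_nonneg_left z2 (by positivity : 0 ≤ 2 * A * 2 ^ n)
        have z8 := mul_nonneg hD20 hX0
        linarith
      · have z2 := sum_tail_le (n := n) hc hσ J (by positivity : 0 < δ₁ / 2) h1.le
        have z7 := mul_le_mul_of_nonneg_left z2 (by positivity : 0 ≤ 2 * A * 2 ^ n)
        have z8 := mul_le_mul_of_nonneg_left (y5.2 hx) hD20
        have z9 := mul_nonneg hD10 hPhi0
        rw [mul_one] at z8
        linarith
    refine hmaj.trans ?_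
    rw [nuF_add h hδ y (hC.smul_mem _ _ p1) (hC.smul_mem _ _ x1), nuF_smul h hδ y _ p1,
      nuF_smul h hδ y _ x1]
    have w1 := mul_le_mul_of_nonneg_left p4 hD10
    have w2 := mul_le_mul_of_nonneg_left x3 hD20
    have hΘ0 : 0 ≤ Θ := by
      have hρ : 0 < √(2 * δ₁) := Real.sqrt_pos.2 (by linarith)
      have h1 := hΘ _ hρ le_rfl
      have h2 : 0 < √(2 * δ₁) ^ n := by positivity
      have h3 : 0 ≤ Θ * √(2 * δ₁) ^ n := ENNReal.toReal_nonneg.trans h1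
      exact nonneg_of_mul_nonneg_left h3 h2
    have w3 : κ / 2 * (Θ * (2 * δ₁) * (n / 2) + Θ * r ^ 2)
        ≤ κ / 2 * (Θ * (2 * δ₁) * (n / 2) + Θ * σ ^ 2) := by
      have := mul_le_mul_of_nonneg_left (hσj2 J) hΘ0
      have h2 : 0 ≤ κ / 2 := by positivity
      nlinarith
    have w4 := mul_le_mul_of_nonneg_left w3 hD10
    have w5 : D1 = A * C1 n c := by rw [hD1]; unfold C1; ring
    have w6 : D2 * (2 * (n + κ * δ) * (m (Metric.ball y √(2 * δ))).toReal)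
        = A * (C2 n c * (n + κ * δ) * (m (Metric.ball y √(2 * δ))).toReal
          * (σ ^ (n + 2) * δ₁⁻¹ ^ (n + 1))) := by
      rw [hD2]; unfold C2
      have : (c * (δ₁ / 2))⁻¹ ^ (n + 1) = (c / 2)⁻¹ ^ (n + 1) * δ₁⁻¹ ^ (n + 1) := by
        rw [← mul_pow, ← mul_inv]
        congr 2
        ring
      rw [this]
      ring
    rw [w6] at w2
    rw [w5] at w1 w4 ⊢
    linarith

end Vale.Agent.P242.H744.Drop
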