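import Mathlib

/-!
P242, A1-DROP, second half: the real analysis of (h6).
-/

set_option linter.all false

open MeasureTheory Filter Topology Set

namespace Vale.Agent.P242.H744

/-- `∫_t^T (t/s)^{1/8} f(s) ds` -/
noncomputable def EE (f : ℝ → ℝ) (T t : ℝ) : ℝ := ∫ s in t..T, (t / s) ^ (1 / 8 : ℝ) * f s

section

variable {f : ℝ → ℝ} (hf : ContinuousOn f (Ioi 0)) (hf0 : ∀ s, 0 < s → 0 ≤ f s)

include hf in
theorem ee_int (c : ℝ) (hc : 0 < c) {a b : ℝ} (ha : 0 < a) (hab : a ≤ b) :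
    IntervalIntegrable (fun s => (c / s) ^ (1 / 8 : ℝ) * f s) volume a b := by
  refine ContinuousOn.intervalIntegrable ?_
  rw [uIcc_of_le hab]
  have hsub : Icc a b ⊆ Ioi 0 := fun s hs => lt_of_lt_of_le ha hs.1
  refine ContinuousOn.mul ?_ (hf.mono hsub)
  refine ContinuousOn.rpow_const (continuousOn_const.div continuousOn_id fun s hs => ?_) fun s hs => ?_
  · exact (hsub hs).ne'
  · left
    have : (0 : ℝ) < s := hsub hs
    exact (div_pos hc this).ne'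

include hf in
theorem f_int {a b : ℝ} (ha : 0 < a) (hab : a ≤ b) : IntervalIntegrable f volume a b := by
  refine ContinuousOn.intervalIntegrable ?_
  rw [uIcc_of_le hab]
  exact hf.mono fun s hs => lt_of_lt_of_le ha hs.1

include hf0 in
theorem ee_nonneg {T t : ℝ} (ht : 0 < t) (htT : t ≤ T) : 0 ≤ EE f T t := by
  refine intervalIntegral.integral_nonneg htT fun s hs => ?_
  have h0 : 0 < s := lt_of_lt_of_le ht hs.1
  exact mul_nonneg (Real.rpow_nonneg (by positivity) _) (hf0 s h0)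

theorem rpow_ratio_le_one {t s : ℝ} (ht : 0 < t) (hts : t ≤ s) : (t / s) ^ (1 / 8 : ℝ) ≤ 1 := by
  have hs : 0 < s := by linarith
  refine Real.rpow_le_one (by positivity) ?_ (by norm_num)
  rw [div_le_one (by linarith)]
  exact hts

include hf hf0 in
theorem ee_le {T t : ℝ} (ht : 0 < t) (htT : t ≤ T) : EE f T t ≤ ∫ s in t..T, f s := by
  refine intervalIntegral.integral_mono_on htT (ee_int hf t ht ht htT) (f_int hf ht htT) ?_
  intro s hs
  have h0 : 0 < s := lt_of_lt_of_le ht hs.1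
  have := mul_le_mul_of_nonneg_right (rpow_ratio_le_one ht hs.1) (hf0 s h0)
  rwa [one_mul] at this

/-- `μ = (Λ⁻²)^{1/8}` -/
noncomputable def mu (Λ : ℝ) : ℝ := (Λ⁻¹ ^ 2) ^ (1 / 8 : ℝ)

theorem mu_pos {Λ : ℝ} (hΛ : 0 < Λ) : 0 < mu Λ := by unfold mu; positivity

theorem mu_pow {Λ : ℝ} (hΛ : 0 < Λ) : mu Λ ^ 8 = Λ⁻¹ ^ 2 := by
  unfold mu
  rw [← Real.rpow_natCast, ← Real.rpow_mul (by positivity)]
  norm_num

theorem mu_le_half {Λ : ℝ} (hΛ : 16 ≤ Λ) : mu Λ ≤ 1 / 2 := by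
  have h0 : 0 < Λ := by linarith
  refine le_of_pow_le_pow_left₀ (n := 8) (by norm_num) (by norm_num) ?_
  rw [mu_pow h0]
  have : Λ⁻¹ ≤ 16⁻¹ := inv_anti₀ (by norm_num) hΛ
  calc Λ⁻¹ ^ 2 ≤ (16⁻¹ : ℝ) ^ 2 := pow_le_pow_left₀ (by positivity) this 2
    _ ≤ _ := by norm_num

theorem inv_le_mu {Λ : ℝ} (hΛ : 16 ≤ Λ) : Λ⁻¹ ≤ mu Λ := by
  have h0 : 0 < Λ := by linarith
  refine le_of_pow_le_pow_left₀ (n := 8) (by norm_num) (mu_pos h0).le ?_
  rw [mu_pow h0]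
  have h1 : Λ⁻¹ ≤ 1 := by
    rw [inv_le_one₀ h0]
    linarith
  exact pow_le_pow_of_le_one (by positivity) h1 (by norm_num)

theorem inv_mu_le {Λ : ℝ} (hΛ : 16 ≤ Λ) : (mu Λ)⁻¹ ≤ √Λ := by
  have h0 : 0 < Λ := by linarith
  have hm := mu_pos h0
  rw [inv_le_comm₀ hm (Real.sqrt_pos.2 h0)]
  refine le_of_pow_le_pow_left₀ (n := 8) (by norm_num) hm.le ?_
  rw [mu_pow h0, inv_pow]
  have : √Λ ^ 8 = Λ ^ 4 := by
    rw [show (8 : ℕ) = 2 * 4 by norm_num, pow_mul, Real.sq_sqrt h0.le]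
  rw [this, ← inv_pow]
  have h1 : Λ⁻¹ ≤ 1 := by
    rw [inv_le_one₀ h0]
    linarith
  exact pow_le_pow_of_le_one (by positivity) h1 (by norm_num)

theorem ratio_rpow {Λ t : ℝ} (hΛ : 0 < Λ) (ht : 0 ≤ t) :
    (t * Λ⁻¹ ^ 2) ^ (1 / 8 : ℝ) = mu Λ * t ^ (1 / 8 : ℝ) := by
  rw [Real.mul_rpow ht (by positivity), mul_comm]
  rfl

include hf hf0 in
/-- one step: `E(Λ⁻² t) = ∫_{Λ⁻²t}^t .. + μ E(t)` -/
theorem ee_step {T t Λ : ℝ} (hΛ : 16 ≤ Λ) (ht : 0 < t) (htT : t ≤ T) :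
    EE f T (t * Λ⁻¹ ^ 2) ≤ (∫ s in (t * Λ⁻¹ ^ 2)..t, f s) + mu Λ * EE f T t ∧
    mu Λ * EE f T t ≤ EE f T (t * Λ⁻¹ ^ 2) := by
  have h0 : 0 < Λ := by linarith
  have hΛ1 : Λ⁻¹ ≤ 1 := by
    rw [inv_le_one₀ h0]
    linarith
  set t' := t * Λ⁻¹ ^ 2 with ht'
  have ht'0 : 0 < t' := by positivity
  have htt' : t' ≤ t := mul_le_of_le_one_right ht.le (pow_le_one₀ (by positivity) hΛ1)
  have e1 : mu Λ * EE f T t = ∫ s in t..T, (t' / s) ^ (1 / 8 : ℝ) * f s := by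
    unfold EE
    rw [← intervalIntegral.integral_const_mul]
    refine intervalIntegral.integral_congr fun s hs => ?_
    rw [uIcc_of_le htT] at hs
    have hs0 : 0 < s := lt_of_lt_of_le ht hs.1
    have : t' / s = t / s * Λ⁻¹ ^ 2 := by rw [ht']; ring
    rw [this, ratio_rpow h0 (by positivity)]
    ring
  have e2 : EE f T t' = (∫ s in t'..t, (t' / s) ^ (1 / 8 : ℝ) * f s)
      + ∫ s in t..T, (t' / s) ^ (1 / 8 : ℝ) * f s := by
    unfold EE
    rw [intervalIntegral.integral_add_adjacent_intervals (ee_int hf t' ht'0 ht'0 htt')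
      (ee_int hf t' ht'0 ht htT)]
  rw [e2, e1]
  constructor
  · have := ee_le hf hf0 ht'0 htt'
    unfold EE at this
    linarith
  · have := ee_nonneg hf0 ht'0 htt'
    unfold EE at this
    linarith

end

theorem geom_le {μ : ℝ} (h0 : 0 ≤ μ) (h1 : μ ≤ 1 / 2) (k : ℕ) :
    ∑ j ∈ Finset.range k, μ ^ j ≤ 2 := by
  have h2 : ∑ j ∈ Finset.range k, (1 / 2 : ℝ) ^ j ≤ 2 := by
    have := Summable.sum_le_tsum (Finset.range k) (fun i _ => by positivity)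
      summable_geometric_two
    rwa [tsum_geometric_two] at this
  exact (Finset.sum_le_sum fun j _ => pow_le_pow_left₀ h0 h1 j).trans h2

/-- **(h6)** for a nonnegative continuous function `f` (`= ν_{y,s}(y)/s`). -/
theorem h6_real {f : ℝ → ℝ} (hf : ContinuousOn f (Ioi 0)) (hf0 : ∀ s, 0 < s → 0 ≤ f s)
    {T A₀ Λ δ ρ : ℝ} (hρ : 0 < ρ) (hT : ρ ^ 2 ≤ T) (hΛ : 16 ≤ Λ) (hA : 0 < A₀)
    (hδ : ∀ a, 0 < a → a ≤ T → ∫ s in a..T, f s ≤ δ) :
    (∀ k : ℕ, A₀ * Λ⁻¹ ^ k ≤ EE f T ((ρ / Λ ^ k) ^ 2) + A₀ * ((ρ / Λ ^ k) ^ 2 / ρ ^ 2) ^ (1 / 8 : ℝ)) ∧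
    (∀ k : ℕ, EE f T ((ρ / Λ ^ k) ^ 2) + A₀ * ((ρ / Λ ^ k) ^ 2 / ρ ^ 2) ^ (1 / 8 : ℝ)
      ≤ √Λ * (EE f T ((ρ / Λ ^ (k + 1)) ^ 2)
        + A₀ * ((ρ / Λ ^ (k + 1)) ^ 2 / ρ ^ 2) ^ (1 / 8 : ℝ))) ∧
    ∀ k : ℕ, ∑ j ∈ Finset.range k, (EE f T ((ρ / Λ ^ j) ^ 2)
      + A₀ * ((ρ / Λ ^ j) ^ 2 / ρ ^ 2) ^ (1 / 8 : ℝ)) ≤ 2 * δ + 4 * A₀ := by
  have h0 : 0 < Λ := by linarith
  have hm := mu_pos h0
  have hm1 := mu_le_half hΛ
  have hΛ1 : Λ⁻¹ ≤ 1 := by
    rw [inv_le_one₀ h0]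
    linarith
  -- scales
  set t : ℕ → ℝ := fun k => (ρ / Λ ^ k) ^ 2 with ht
  have t0 : ∀ k, 0 < t k := fun k => by simp only [ht]; positivity
  have tsucc : ∀ k, t (k + 1) = t k * Λ⁻¹ ^ 2 := by
    intro k
    simp only [ht]
    have e : Λ ^ (k + 1) = Λ ^ k * Λ := pow_succ _ _
    rw [e]
    field_simp
  have tT : ∀ k, t k ≤ T := by
    intro k
    induction k with
    | zero => simp only [ht, pow_zero, div_one]; exact hT
    | succ k ih =>
      rw [tsucc]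
      exact (mul_le_of_le_one_right (t0 k).le (pow_le_one₀ (by positivity) hΛ1)).trans ih
  have tpow : ∀ k, (t k / ρ ^ 2) ^ (1 / 8 : ℝ) = mu Λ ^ k := by
    intro k
    induction k with
    | zero =>
      simp only [ht, pow_zero, div_one]
      rw [div_self (by positivity), Real.one_rpow]
    | succ k ih =>
      have : t (k + 1) / ρ ^ 2 = t k / ρ ^ 2 * Λ⁻¹ ^ 2 := by rw [tsucc]; ring
      rw [this, ratio_rpow h0 (by have := t0 k; positivity), ih, pow_succ]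
      ring
  set E : ℕ → ℝ := fun k => EE f T (t k) with hE
  have hE0 : ∀ k, 0 ≤ E k := fun k => ee_nonneg hf0 (t0 k) (tT k)
  have hstep : ∀ k, E (k + 1) ≤ (∫ s in (t (k + 1))..(t k), f s) + mu Λ * E k ∧
      mu Λ * E k ≤ E (k + 1) := by
    intro k
    have := ee_step hf hf0 hΛ (t0 k) (tT k)
    simp only [hE]
    rw [tsucc]
    exact this
  refine ⟨fun k => ?_, fun k => ?_, fun k => ?_⟩
  · change A₀ * Λ⁻¹ ^ k ≤ E k + A₀ * (t k / ρ ^ 2) ^ (1 / 8 : ℝ)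
    rw [tpow]
    have h1 : Λ⁻¹ ^ k ≤ mu Λ ^ k := pow_le_pow_left₀ (by positivity) (inv_le_mu hΛ) k
    have h2 := mul_le_mul_of_nonneg_left h1 hA.le
    have := hE0 k
    linarith
  · change E k + A₀ * (t k / ρ ^ 2) ^ (1 / 8 : ℝ) ≤ √Λ * (E (k + 1)
      + A₀ * (t (k + 1) / ρ ^ 2) ^ (1 / 8 : ℝ))
    rw [tpow, tpow]
    have h1 : E k ≤ (mu Λ)⁻¹ * E (k + 1) := by
      rw [← div_eq_inv_mul, le_div_iff₀ hm]
      linarith [(hstep k).2]
    have h2 : A₀ * mu Λ ^ k = (mu Λ)⁻¹ * (A₀ * mu Λ ^ (k + 1)) := by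
      rw [pow_succ]; field_simp
    have h3 : 0 ≤ E (k + 1) + A₀ * mu Λ ^ (k + 1) := by
      have := hE0 (k + 1)
      positivity
    have h4 := mul_le_mul_of_nonneg_right (inv_mu_le hΛ) h3
    linarith
  · change ∑ j ∈ Finset.range k, (E j + A₀ * (t j / ρ ^ 2) ^ (1 / 8 : ℝ)) ≤ 2 * δ + 4 * A₀
    have hT0 : 0 < T := lt_of_lt_of_le (t0 0) (tT 0)
    have hδ0 : 0 ≤ δ := by
      have := hδ T hT0 le_rfl
      rwa [intervalIntegral.integral_same] at this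
    rw [Finset.sum_add_distrib]
    have h1 : ∑ j ∈ Finset.range k, A₀ * (t j / ρ ^ 2) ^ (1 / 8 : ℝ) ≤ 2 * A₀ := by
      simp only [tpow]
      rw [← Finset.mul_sum]
      have := mul_le_mul_of_nonneg_left (geom_le hm.le hm1 k) hA.le
      linarith
    have h2 : ∀ k, ∑ j ∈ Finset.range (k + 1), E j + E k ≤ 2 * ∫ s in (t k)..T, f s := by
      intro k
      induction k with
      | zero =>
        rw [zero_add, Finset.sum_range_one]
        have := ee_le hf hf0 (t0 0) (tT 0)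
        have e : E 0 = EE f T (t 0) := rfl
        rw [e]
        linarith
      | succ k ih =>
        rw [Finset.sum_range_succ]
        have h3 := (hstep k).1
        have h4 := hE0 k
        have htt : t (k + 1) ≤ t k := by
          rw [tsucc]
          exact mul_le_of_le_one_right (t0 k).le (pow_le_one₀ (by positivity) hΛ1)
        have h5 : ∫ s in (t (k + 1))..T, f s = (∫ s in (t (k + 1))..(t k), f s)
            + ∫ s in (t k)..T, f s :=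
          (intervalIntegral.integral_add_adjacent_intervals (f_int hf (t0 _) htt)
            (f_int hf (t0 _) (tT k))).symm
        rw [h5]
        have h6 : mu Λ * E k ≤ 1 / 2 * E k := mul_le_mul_of_nonneg_right hm1 h4
        linarith
    have h3 : ∑ j ∈ Finset.range k, E j ≤ 2 * δ := by
      rcases k with _ | k
      · rw [Finset.sum_range_zero]; linarith
      · have := h2 k
        have h4 := hδ (t k) (t0 k) (tT k)
        have := hE0 k
        linarith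
    linarith

end Vale.Agent.P242.H744
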