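import Vale.Agent.P242.H71.Voc
import Vale.Agent.P242.H744.DropD
import Vale.Agent.P242.H744.H6Real
import Vale.Agent.P242.H992.Lib

/-!
P242: the functional `ν` of the frozen vocabulary; sign, continuity in time, block (h6).
-/

set_option linter.all false

open MeasureTheory Filter Topology Set
open scoped ENNReal NNReal MeasureTheory

universe u

namespace Vale.Agent.P242.H744

open Vale.Agent.P233 Vale.Agent.P233.RA Vale.Agent.P242.H990

section split

variable {M : Type u} [MetricSpace M] [MeasurableSpace M] [BorelSpace M]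
  [SecondCountableTopology M] {m : Measure M} {n : ℕ} {K : ℝ} {θ : M → ℝ}

/-- The frozen functional is the functional of VolDrop plus a tail. -/
theorem nuF_split (h : N2.RA.NSp m n K θ) (y : M) {φ : M →ₘ[m] ℝ} (hφ1 : MemLp φ 1 m) :
    H71.nuF m n K y φ = Drop.nuF m n (|K| + 1) (1 / 2) y φ
      + ((n : ℝ) + (|K| + 1) / 2) * ∫ x in {x | gg y x < 1 / 2}ᶜ, φ x ∂m := by
  have hδ : (0 : ℝ) ≤ 1 / 2 := by norm_num
  have hi : Integrable φ m := memLp_one_iff_integrable.1 hφ1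
  have hwa := N2.H982.ww_ae (m := m) hδ y
  have hms := N2.H982.measurableSet_gg (1 / 2) y
  set κ : ℝ := |K| + 1 with hκ
  have hiw : Integrable (fun x => φ x * ww (1 / 2) y x) m := by
    refine Integrable.mono' (g := fun x => 1 / 2 * |φ x|) (hi.abs.const_mul _) ?_ ?_
    · refine hi.aestronglyMeasurable.mul ?_
      exact (N2.H982.ww_lip hδ y).continuous.aestronglyMeasurable
    · refine Eventually.of_forall fun x => ?_
      rw [Real.norm_eq_abs, abs_mul]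
      have := mul_le_mul_of_nonneg_left (N2.H982.abs_ww_le hδ y x) (abs_nonneg (φ x))
      linarith
  have e1 : I (φ * cl m (ww (1 / 2) y)) = ∫ x, φ x * ww (1 / 2) y x ∂m := by
    unfold I
    refine integral_congr_ae ?_
    filter_upwards [mul_ae φ (cl m (ww (1 / 2) y)), hwa] with x a1 a2
    rw [a1, a2]
  have e2 : ((n : ℝ) + κ / 2) * I φ + κ * I (φ * cl m (ww (1 / 2) y))
      = ∫ x, (((n : ℝ) + κ / 2) * φ x + κ * (φ x * ww (1 / 2) y x)) ∂m := by
    rw [e1, integral_add (hi.const_mul _) (hiw.const_mul _), integral_const_mul,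
      integral_const_mul]
    rfl
  have e3 := integral_add_compl hms ((hi.const_mul ((n : ℝ) + κ / 2)).add (hiw.const_mul κ))
  have e4 : ∫ x in {x | gg y x < 1 / 2}, (((n : ℝ) + κ / 2) * φ x + κ * (φ x * ww (1 / 2) y x)) ∂m
      = ∫ x in {x | gg y x < 1 / 2}, ((n : ℝ) + κ * gg y x) * φ x ∂m := by
    refine setIntegral_congr_fun hms fun x hx => ?_
    have hx' : gg y x < 1 / 2 := hx
    rw [N2.H982.ww_of_lt hx']
    ring
  have e5 : ∫ x in {x | gg y x < 1 / 2}ᶜ, (((n : ℝ) + κ / 2) * φ x + κ * (φ x * ww (1 / 2) y x)) ∂m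
      = ((n : ℝ) + κ / 2) * ∫ x in {x | gg y x < 1 / 2}ᶜ, φ x ∂m := by
    rw [← integral_const_mul]
    refine setIntegral_congr_fun hms.compl fun x hx => ?_
    have hx' : 1 / 2 ≤ gg y x := not_lt.1 hx
    rw [N2.H982.ww_of_ge hx']
    ring
  have e6 : ∫ x, (((n : ℝ) + κ / 2) * φ x + κ * (φ x * ww (1 / 2) y x)) ∂m
      = ∫ x in {x | gg y x < 1 / 2}, ((n : ℝ) + κ * gg y x) * φ x ∂m
        + ((n : ℝ) + κ / 2) * ∫ x in {x | gg y x < 1 / 2}ᶜ, φ x ∂m := by
    rw [← e4, ← e5]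
    exact e3.symm
  unfold H71.nuF Drop.nuF
  rw [e2, e6]
  ring

end split

variable {M : Type u} [MetricSpace M] [CompleteSpace M] [SecondCountableTopology M]
  [MeasurableSpace M] [BorelSpace M] {m : Measure M} {n : ℕ} {K A : ℝ} {o : M}
  {p : ℝ → M → M → ℝ}

theorem hyp_of (h : H71.HypL m n K) : CD.Hyp m n K := ⟨h.1, h.2, h.3, h.4⟩

theorem isGamma_of (h : H71.HypL m n K) : IsGamma (sob m) := by
  obtain ⟨θ, t⟩ := H992.nsp2 (hyp_of h)
  exact t.isGamma

theorem nsp_of (h : H71.HypL m n K) : ∃ θ : M → ℝ, N2.RA.NSp m n K θ := H992.nsp (hyp_of h)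

theorem w_mem (h : H71.HypL m n K) (y : M) : cl m (ww (1 / 2) y) ∈ (sob m).W := by
  obtain ⟨θ, t⟩ := nsp_of h
  exact (N2.H982.ww_A (m := m) t.fin (by norm_num : (0 : ℝ) ≤ 1 / 2) y).1

theorem nuF_nonneg (h : H71.HypL m n K) (y : M) {φ : M →ₘ[m] ℝ} (hφ : φ ∈ (sob m).W)
    (hφ1 : MemLp φ 1 m) (h0 : 0 ≤ φ) : 0 ≤ H71.nuF m n K y φ := by
  obtain ⟨θ, t⟩ := nsp_of h
  rw [nuF_split t y hφ1]
  have h1 := Drop.nuF_nonneg t (κ := |K| + 1) (by have := abs_nonneg K; linarith)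
    (by norm_num : (0 : ℝ) < 1 / 2) y hφ h0
  have h2 : 0 ≤ ∫ x in {x | gg y x < 1 / 2}ᶜ, φ x ∂m :=
    integral_nonneg_of_ae (ae_restrict_of_ae (nonneg_iff_ae.1 h0))
  positivity

/-- sign of `ν_{y,s}(x)` -/
theorem nu_nonneg (e : H71.Env m n K o A p) (y x : M) {s : ℝ} (hs : 0 < s) :
    0 ≤ H71.nu m n K p y s x :=
  nuF_nonneg e.hyp y (ph_mem (isGamma_of e.hyp).toIsDir e.ker hs x) (ph_mem1 e.ker hs x)
    (ph_nonneg e.ker hs x)

/-- `ν_{y,s}(x) = n + K₁/2 + K₁ P_s w_y(x) - ∫ Δp_s(x,·) w_y` -/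
theorem nu_eq (e : H71.Env m n K o A p) (y x : M) {s : ℝ} (hs : 0 < s) :
    H71.nu m n K p y s x = ((n : ℝ) + (|K| + 1) / 2)
      + (|K| + 1) * I (ph m p s x * cl m (ww (1 / 2) y))
      - I ((sob m).lap (ph m p s x) * cl m (ww (1 / 2) y)) := by
  have hC := (isGamma_of e.hyp).toIsDir
  have hw := w_mem e.hyp y
  unfold H71.nu H71.nuF
  rw [I_ph e.ker hs x, hC.symm _ hw _ (ph_mem hC e.ker hs x), I_Γ_ph hC e.ker hs x hw]
  ring

/-- continuity in time -/
theorem nu_cont (e : H71.Env m n K o A p) (y x : M) :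
    ContinuousOn (fun s => H71.nu m n K p y s x) (Ioi 0) := by
  have hC := (isGamma_of e.hyp).toIsDir
  have hw := hC.memLp _ (w_mem e.hyp y)
  intro s₀ hs₀
  have ha : 0 < s₀ / 2 := half_pos hs₀
  refine ContinuousAt.continuousWithinAt ?_
  have h1 : Continuous fun s => ((n : ℝ) + (|K| + 1) / 2)
      + (|K| + 1) * I ((sob m).P (s - s₀ / 2) (ph m p (s₀ / 2) x) * cl m (ww (1 / 2) y))
      - I ((sob m).P (s - s₀ / 2) ((sob m).lap (ph m p (s₀ / 2) x)) * cl m (ww (1 / 2) y)) := by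
    have c1 := (hC.P_cont_I (ph_mem2 e.ker ha x) hw).comp (continuous_sub_right (s₀ / 2))
    have c2 := (hC.P_cont_I (ph_lap_mem2 hC e.ker ha x) hw).comp (continuous_sub_right (s₀ / 2))
    exact (continuous_const.add (continuous_const.mul c1)).sub c2
  refine h1.continuousAt.congr ?_
  have h2 : ∀ᶠ s in 𝓝 s₀, s₀ / 2 < s := lt_mem_nhds (by
    have : (0 : ℝ) < s₀ := hs₀
    linarith)
  filter_upwards [h2] with s hs
  have hs' : 0 ≤ s - s₀ / 2 := by linarith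
  rw [nu_eq e y x (ha.trans hs), P_ph hC e.ker hs' ha x, P_lap_ph hC e.ker hs' ha x]
  congr 6 <;> ring

/-- **Blk_H6** -/
theorem blk_H6 : H71.Blk_H6.{u} := by
  intro M _ _ _ _ _ m n K o A p e R Q A₀ Λ δ ρ hR hQ hA₀ hΛ hρ hQρ hD
  intro x hx
  have hf : ContinuousOn (fun s => H71.nu m n K p x s x / s) (Ioi 0) :=
    (nu_cont e x x).div continuousOn_id fun s hs => ne_of_gt hs
  have hf0 : ∀ s, 0 < s → 0 ≤ H71.nu m n K p x s x / s := fun s hs =>
    div_nonneg (nu_nonneg e x x hs) hs.le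
  have hT : ρ ^ 2 ≤ Q * ρ ^ 2 := le_mul_of_one_le_left (by positivity) hQ
  exact h6_real hf hf0 hρ hT hΛ hA₀ (hD x hx)

end Vale.Agent.P242.H744
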