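import Vale.Agent.P242.H924.Uc
import Vale.Agent.P242.H744.NuC

/-!
P242: the forms `gam_s` and `gm_s` at a centre: sign, Harnack, continuity in time, smallness at the
top scales.
-/

set_option linter.all false

open MeasureTheory Filter Topology Set
open scoped ENNReal NNReal MeasureTheory InnerProductSpace

universe u

namespace Vale.Agent.P242.H744

open Vale.Agent.P233 Vale.Agent.P233.RA Vale.Agent.P242.H990

variable {M : Type u} [MetricSpace M] [CompleteSpace M] [SecondCountableTopology M]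
  [MeasurableSpace M] [BorelSpace M] {m : Measure M} {n : ℕ} {K A : ℝ} {o : M}
  {p : ℝ → M → M → ℝ}

/-- the Bakry-Émery inequality with `-|K|` -/
theorem be_abs (h : H71.HypL m n K) : (sob m).BE (-|K|) n ∧ (sob m).BEi (-|K|) := by
  obtain ⟨_, hC, hBE, _, hn⟩ := H924.facts h
  have h1 : (sob m).BE (-|K|) n := hC.be_mono hn (neg_abs_le K) hBE
  exact ⟨h1, hC.bei hn h1⟩

theorem gam_nonneg (e : H71.Env m n K o A p) {f : M →ₘ[m] ℝ} (hf : f ∈ (sob m).Test) (x : M)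
    {s : ℝ} (hs : 0 < s) : 0 ≤ H71.gam m K p s x f f := by
  obtain ⟨_, hC, _, _, _⟩ := H924.facts e.hyp
  exact hC.NN_nonneg (be_abs e.hyp).2 hf (ph_A hC e.ker e.kb hs x) (ph_nonneg e.ker hs x)

/-- Harnack inequality for `gam` -/
theorem gam_harnack (e : H71.Env m n K o A p) {f : M →ₘ[m] ℝ} (hf : f ∈ (sob m).Test)
    {Γ C₀ s s' : ℝ} {x y : M} (hs : 0 < s) (h1 : 4 * A ^ 2 * s ≤ s') (h2 : s' ≤ Γ * s)
    (h3 : s' ≤ 1 / 2) (hx : dist x y ≤ C₀ * √s) :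
    H71.gam m K p s x f f
      ≤ cG n A Γ C₀ * Real.exp (2 * A * dist x o) * H71.gam m K p s' y f f := by
  obtain ⟨_, hC, _, _, _⟩ := H924.facts e.hyp
  have hA := e.kb.one_le
  have hs' : 0 < s' := lt_of_lt_of_le (by positivity) h1
  refine hC.NN_harn (be_abs e.hyp).2 hf (ph_A hC e.ker e.kb hs x) (ph_A hC e.ker e.kb hs' y) ?_
  rw [le_iff_ae]
  filter_upwards [ph_ae e.ker hs x, ph_ae e.ker hs' y,
    smul_ae (f := ph m p s' y) (cG n A Γ C₀ * Real.exp (2 * A * dist x o))] with z a1 a2 a3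
  rw [a3, a1, a2]
  exact e.kb.p_le hs h1 h2 h3 hx

/-- continuity in time of `gam` -/
theorem gam_cont (e : H71.Env m n K o A p) {f g : M →ₘ[m] ℝ} (hf : f ∈ (sob m).Test)
    (hg : g ∈ (sob m).Test) (x : M) :
    ContinuousOn (fun s => H71.gam m K p s x f g) (Ioi 0) := by
  obtain ⟨_, hC, _, _, _⟩ := H924.facts e.hyp
  have hB := (be_abs e.hyp).2
  have hφ := H924.cen hC e x
  intro s₀ hs₀
  have hs0 : (0 : ℝ) < s₀ := hs₀
  have ha : 0 < s₀ / 2 := half_pos hs0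
  refine ContinuousAt.continuousWithinAt ?_
  have h1 : HasDerivAt (fun s => I (ph m p s x * (sob m).gam |K| (s₀ / 2) f g))
      (I ((sob m).lap (ph m p (s₀ / 2) x) * (sob m).gam |K| (s₀ / 2) f g)) (s₀ / 2) :=
    hφ.hasDeriv_av hC.toIsDir ha (hC.gam_mem2 hB ha hf hg)
  have h2 : ContinuousAt (fun s => I (ph m p (s - s₀ / 2) x * (sob m).gam |K| (s₀ / 2) f g)) s₀ := by
    have h3 : ContinuousAt (fun s : ℝ => s - s₀ / 2) s₀ := by fun_prop
    have h4 : s₀ - s₀ / 2 = s₀ / 2 := by ring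
    exact ContinuousAt.comp (f := fun s : ℝ => s - s₀ / 2)
      (g := fun s => I (ph m p s x * (sob m).gam |K| (s₀ / 2) f g)) (by
        rw [h4]; exact h1.continuousAt) h3
  refine h2.congr ?_
  filter_upwards [lt_mem_nhds (show s₀ / 2 < s₀ by linarith)] with s hs
  have h5 := hφ.av_gam hC hB (K₀ := |K|) (s := s - s₀ / 2) (t := s₀ / 2) (by linarith) ha hf hg
  rw [sub_add_cancel] at h5
  exact h5

section cfg

variable {R Q η ρ : ℝ} {u : Fin n → M →ₘ[m] ℝ} {uu : M → H71.E n}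

theorem uc_test (e : H71.Env m n K o A p) (hu : H71.Cfg m n K o p R Q η ρ u uu) (c : H71.E n) :
    H71.uc u c ∈ (sob m).Test := (H924.uc_testI e hu c).1

theorem gm_nonneg (e : H71.Env m n K o A p) (hu : H71.Cfg m n K o p R Q η ρ u uu) (c : H71.E n)
    (x : M) {s : ℝ} (hs : 0 < s) : 0 ≤ H71.gm m K p u s x c c :=
  gam_nonneg e (uc_test e hu c) x hs

theorem gm_cont (e : H71.Env m n K o A p) (hu : H71.Cfg m n K o p R Q η ρ u uu) (c c' : H71.E n)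
    (x : M) : ContinuousOn (fun s => H71.gm m K p u s x c c') (Ioi 0) :=
  gam_cont e (uc_test e hu c) (uc_test e hu c') x

theorem gm_int (e : H71.Env m n K o A p) (hu : H71.Cfg m n K o p R Q η ρ u uu) (c c' : H71.E n)
    (x : M) {a b : ℝ} (ha : 0 < a) (hab : a ≤ b) :
    IntervalIntegrable (fun s => H71.gm m K p u s x c c') volume a b := by
  refine ContinuousOn.intervalIntegrable ?_
  rw [uIcc_of_le hab]
  exact (gm_cont e hu c c' x).mono fun s hs => lt_of_lt_of_le ha hs.1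

/-- **smallness of `gm` at the top scales** -/
theorem gm_top (e : H71.Env m n K o A p) {Q' L : ℝ} (hQ' : 1 ≤ Q') (hQA : 2 * A ≤ Q')
    (hL : 1 ≤ L) : ∃ C : ℝ, 1 ≤ C ∧ ∀ (R η ρ : ℝ) (u : Fin n → M →ₘ[m] ℝ) (uu : M → H71.E n),
    H71.Cfg m n K o p R Q' η ρ u uu → ∀ x ∈ Metric.ball o (R * ρ), ∀ s, ρ ^ 2 / L ≤ s →
    s ≤ Q' * ρ ^ 2 → ∀ c : H71.E n, H71.gm m K p u s x c c ≤ C * η * ‖c‖ ^ 2 / ρ ^ 2 := by
  have hA := e.kb.one_le
  set Γ : ℝ := max (L / Q') (4 * A ^ 2) with hΓ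
  have hΓ0 : 0 < Γ := lt_of_lt_of_le (by positivity) (le_max_right _ _)
  set C : ℝ := max 1 (cG n A Γ 0 * Real.exp (2 * A)) * Q' with hC
  have hC1 : 1 ≤ C := one_le_mul_of_one_le_of_one_le (le_max_left _ _) hQ'
  refine ⟨C, hC1, ?_⟩
  intro R η ρ u uu hu x hx s hs1 hs2 c
  have hρ := hu.ρ_pos
  have hρ2 : 0 < ρ ^ 2 := by positivity
  have hη : 0 ≤ η := (mul_nonneg (abs_nonneg K) hρ2.le).trans hu.Kρ
  have hs : 0 < s := lt_of_lt_of_le (by positivity) hs1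
  -- at the scales of `Cfg`
  have htop : ∀ s', ρ ^ 2 / Q' ≤ s' → s' ≤ Q' * ρ ^ 2 →
      H71.gm m K p u s' x c c ≤ Q' * (η * ‖c‖ ^ 2 / ρ ^ 2) := by
    intro s' h1 h2
    have hs' : 0 < s' := lt_of_lt_of_le (by positivity) h1
    have h3 := hu.gam x hx s' h1 h2 c
    have h4 : H71.gm m K p u s' x c c ≤ η * ‖c‖ ^ 2 / s' := by
      rw [le_div_iff₀ hs']; linarith
    refine h4.trans ?_
    rw [div_le_iff₀ hs']
    have h5 : ρ ^ 2 ≤ Q' * s' := by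
      rw [div_le_iff₀ (by positivity)] at h1
      linarith
    have h6 := mul_le_mul_of_nonneg_left h5 (by positivity : 0 ≤ η * ‖c‖ ^ 2 / ρ ^ 2)
    have h7 : η * ‖c‖ ^ 2 / ρ ^ 2 * ρ ^ 2 = η * ‖c‖ ^ 2 := by field_simp
    linarith
  have hR : 0 ≤ η * ‖c‖ ^ 2 / ρ ^ 2 := by positivity
  have hfin : ∀ D : ℝ, D ≤ max 1 (cG n A Γ 0 * Real.exp (2 * A)) →
      D * (Q' * (η * ‖c‖ ^ 2 / ρ ^ 2)) ≤ C * η * ‖c‖ ^ 2 / ρ ^ 2 := by
    intro D hD
    have := mul_le_mul_of_nonneg_right hD (by positivity : 0 ≤ Q' * (η * ‖c‖ ^ 2 / ρ ^ 2))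
    refine this.trans (le_of_eq ?_)
    rw [hC]
    ring
  rcases le_or_gt (ρ ^ 2 / Q') s with h | h
  · have h1 := htop s h hs2
    have h2 := hfin 1 (le_max_left _ _)
    linarith
  · set s' : ℝ := max (ρ ^ 2 / Q') (4 * A ^ 2 * s) with hs'
    have h1 : 4 * A ^ 2 * s ≤ s' := le_max_right _ _
    have h2 : s' ≤ Γ * s := by
      refine max_le ?_ ?_
      · have e1 : ρ ^ 2 / Q' = L / Q' * (ρ ^ 2 / L) := by field_simp
        rw [e1]
        exact mul_le_mul (le_max_left _ _) hs1 (by positivity) hΓ0.le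
      · exact mul_le_mul_of_nonneg_right (le_max_right _ _) hs.le
    have h3 : s' ≤ Q' * ρ ^ 2 := by
      refine max_le ?_ ?_
      · rw [div_le_iff₀ (by positivity)]
        have : 1 ≤ Q' * Q' := one_le_mul_of_one_le_of_one_le hQ' hQ'
        nlinarith
      · have h4 : 4 * A ^ 2 ≤ Q' ^ 2 := by nlinarith
        calc 4 * A ^ 2 * s ≤ Q' ^ 2 * (ρ ^ 2 / Q') := by gcongr
          _ = Q' * ρ ^ 2 := by field_simp
    have h5 : s' ≤ 1 / 2 := h3.trans hu.Qρ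
    have h6 := gam_harnack e (uc_test e hu c) (x := x) (y := x) (C₀ := 0) hs h1 h2 h5 (by simp)
    have h7 := htop s' (le_max_left _ _) h3
    have hdx : dist x o ≤ 1 := (Metric.mem_ball.1 hx).le.trans hu.Rρ
    have h8 : cG n A Γ 0 * Real.exp (2 * A * dist x o) ≤ max 1 (cG n A Γ 0 * Real.exp (2 * A)) := by
      refine le_trans ?_ (le_max_right _ _)
      refine mul_le_mul_of_nonneg_left (Real.exp_le_exp.2 ?_) (cG_pos hA hΓ0).le
      exact mul_le_of_le_one_right (by positivity) hdx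
    have h9 : 0 ≤ cG n A Γ 0 * Real.exp (2 * A * dist x o) :=
      mul_nonneg (cG_pos hA hΓ0).le (Real.exp_pos _).le
    calc H71.gm m K p u s x c c ≤ cG n A Γ 0 * Real.exp (2 * A * dist x o)
          * H71.gm m K p u s' x c c := h6
      _ ≤ cG n A Γ 0 * Real.exp (2 * A * dist x o) * (Q' * (η * ‖c‖ ^ 2 / ρ ^ 2)) :=
          mul_le_mul_of_nonneg_left h7 h9
      _ ≤ _ := hfin _ h8

/-- **the start**: `∫_t^{Qρ²} gm_s ds ≤ C η |c|²` for `t ≥ ρ²/L` -/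
theorem gm_start (e : H71.Env m n K o A p) {Q' L : ℝ} (hQ' : 1 ≤ Q') (hQA : 2 * A ≤ Q')
    (hL : 1 ≤ L) : ∃ C : ℝ, 1 ≤ C ∧ ∀ (R η ρ : ℝ) (u : Fin n → M →ₘ[m] ℝ) (uu : M → H71.E n),
    H71.Cfg m n K o p R Q' η ρ u uu → ∀ x ∈ Metric.ball o (R * ρ), ∀ t, ρ ^ 2 / L ≤ t →
    t ≤ Q' * ρ ^ 2 → ∀ c : H71.E n,
    ∫ s in t..Q' * ρ ^ 2, H71.gm m K p u s x c c ≤ C * η * ‖c‖ ^ 2 := by
  obtain ⟨C, hC, h⟩ := gm_top e hQ' hQA hL
  refine ⟨C * Q', one_le_mul_of_one_le_of_one_le hC hQ', ?_⟩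
  intro R η ρ u uu hu x hx t ht1 ht2 c
  have hρ := hu.ρ_pos
  have hρ2 : 0 < ρ ^ 2 := by positivity
  have hη : 0 ≤ η := (mul_nonneg (abs_nonneg K) hρ2.le).trans hu.Kρ
  have ht : 0 < t := lt_of_lt_of_le (by positivity) ht1
  have h1 : ∫ s in t..Q' * ρ ^ 2, H71.gm m K p u s x c c
      ≤ ∫ s in t..Q' * ρ ^ 2, C * η * ‖c‖ ^ 2 / ρ ^ 2 := by
    refine intervalIntegral.integral_mono_on ht2 (gm_int e hu c c x ht ht2) (by simp) ?_
    intro s hs
    exact h R η ρ u uu hu x hx s (ht1.trans hs.1) hs.2 c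
  rw [intervalIntegral.integral_const, smul_eq_mul] at h1
  refine h1.trans ?_
  have h2 : (Q' * ρ ^ 2 - t) * (C * η * ‖c‖ ^ 2 / ρ ^ 2)
      ≤ Q' * ρ ^ 2 * (C * η * ‖c‖ ^ 2 / ρ ^ 2) :=
    mul_le_mul_of_nonneg_right (by linarith) (by positivity)
  have h3 : Q' * ρ ^ 2 * (C * η * ‖c‖ ^ 2 / ρ ^ 2) = C * Q' * η * ‖c‖ ^ 2 := by field_simp
  linarith

end cfg

end Vale.Agent.P242.H744
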