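import Vale.Agent.P233.N2.H982.RH3
import Vale.Agent.P233.H589.Lat
import Vale.Agent.P233.N2.H339.CY2

/-!
P242, block VolDrop, part A: the positive functional `ν_y φ = ∫ a_y φ + ∫ Γ(w_y, φ)`.
-/

set_option linter.all false

open MeasureTheory Filter Topology Set
open scoped ENNReal NNReal MeasureTheory

universe u

namespace Vale.Agent.P242.H744.Drop

open Vale.Agent.P233 Vale.Agent.P233.N2 Vale.Agent.P233.N2.RA

variable {M : Type u} [MetricSpace M] [MeasurableSpace M] [BorelSpace M]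
  [SecondCountableTopology M] {m : Measure M} {n : ℕ} {K : ℝ} {θ : M → ℝ} {δ δ' κ : ℝ}

/-- `Γ(w_δ, w_δ) = 2 g` on `{g < δ}`. -/
theorem Γ_ww (h : N2.RA.NSp m n K θ) (hδ : 0 < δ) (y : M) :
    ∀ᵐ x ∂m, gg y x < δ → (sob m).Γ (cl m (ww δ y)) (cl m (ww δ y)) x = 2 * gg y x := by
  have hC := h.isDir
  have hup : ∀ᵐ x ∂m, ∀ q : ℚ, 0 < (q : ℝ) → (q : ℝ) ≤ δ → gg y x < q →
      (sob m).Γ (cl m (ww δ y)) (cl m (ww δ y)) x ≤ 2 * q := by
    rw [ae_all_iff]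
    intro q
    by_cases hq : 0 < (q : ℝ)
    · have hW := H982.ww_A h.fin hδ.le y
      have hWq := H982.ww_A (m := m) h.fin hq.le y
      filter_upwards [H982.Γ_ww_le (m := m) h.fin hq.le y,
        hC.Γ_level (hC.sub_mem hW.1 hWq.1) hW.1 ((q : ℝ) - δ),
        hC.Γ_level (hC.sub_mem hW.1 hWq.1) hWq.1 ((q : ℝ) - δ),
        sub_ae (cl m (ww δ y)) (cl m (ww (q : ℝ) y)),
        eq_iff_ae.1 (hC.Γ_sub_left hW.1 hWq.1 hW.1), eq_iff_ae.1 (hC.Γ_sub_left hW.1 hWq.1 hWq.1),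
        sub_ae ((sob m).Γ (cl m (ww δ y)) (cl m (ww δ y)))
          ((sob m).Γ (cl m (ww (q : ℝ) y)) (cl m (ww δ y))),
        sub_ae ((sob m).Γ (cl m (ww δ y)) (cl m (ww (q : ℝ) y)))
          ((sob m).Γ (cl m (ww (q : ℝ) y)) (cl m (ww (q : ℝ) y))),
        eq_iff_ae.1 (hC.symm _ hW.1 _ hWq.1), H982.ww_ae (m := m) hδ.le y,
        H982.ww_ae (m := m) hq.le y] with x a1 a2 a3 a4 a5 a6 a7 a8 a9 b1 b2 _ hqδ hx
      have e : (cl m (ww δ y) - cl m (ww (q : ℝ) y)) x = (q : ℝ) - δ := by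
        rw [a4, b1, b2, H982.ww_of_lt (hx.trans_le hqδ), H982.ww_of_lt hx]
        ring
      have c1 := a2 e
      have c2 := a3 e
      rw [a5, a7] at c1
      rw [a6, a8] at c2
      linarith
    · exact Eventually.of_forall fun x h1 => absurd h1 hq
  filter_upwards [hup, H339.ww_grad h hδ y] with x h1 h2 hx
  refine le_antisymm ?_ (h2 hx)
  by_contra hlt
  rw [not_le] at hlt
  obtain ⟨q, hq1, hq2⟩ := exists_rat_btwn
    (lt_min hx (by linarith : gg y x < (sob m).Γ (cl m (ww δ y)) (cl m (ww δ y)) x / 2))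
  have hq0 : 0 < (q : ℝ) := lt_of_le_of_lt (H982.gg_nonneg y x) hq1
  have := h1 q hq0 (hq2.le.trans (min_le_left _ _)) hq1
  have := hq2.trans_le (min_le_right _ _)
  linarith

/-- `Γ(w_δ, w_δ')`. -/
theorem Γ_ww_ww (h : N2.RA.NSp m n K θ) (hδ : 0 < δ) (hδ' : 0 < δ') (y : M) :
    ∀ᵐ x ∂m, (sob m).Γ (cl m (ww δ y)) (cl m (ww δ' y)) x
      = if gg y x < min δ δ' then 2 * gg y x else 0 := by
  have hC := h.isDir
  have hW := H982.ww_A (m := m) h.fin hδ.le y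
  have hW' := H982.ww_A (m := m) h.fin hδ'.le y
  filter_upwards [hC.Γ_ae_zero hW.1 hW'.1, hC.Γ_ae_zero hW'.1 hW.1,
    eq_iff_ae.1 (hC.symm _ hW.1 _ hW'.1), H982.ww_ae (m := m) hδ.le y,
    H982.ww_ae (m := m) hδ'.le y, Γ_ww h hδ y,
    hC.Γ_level (hC.sub_mem hW'.1 hW.1) hW.1 (δ - δ'),
    sub_ae (cl m (ww δ' y)) (cl m (ww δ y)),
    eq_iff_ae.1 (hC.Γ_sub_left hW'.1 hW.1 hW.1),
    sub_ae ((sob m).Γ (cl m (ww δ' y)) (cl m (ww δ y)))
      ((sob m).Γ (cl m (ww δ y)) (cl m (ww δ y)))] with x a1 a2 a3 b1 b2 c1 c2 c3 c4 c5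
  by_cases hx : gg y x < min δ δ'
  · rw [if_pos hx]
    have h1 : gg y x < δ := hx.trans_le (min_le_left _ _)
    have h2 : gg y x < δ' := hx.trans_le (min_le_right _ _)
    have e : (cl m (ww δ' y) - cl m (ww δ y)) x = δ - δ' := by
      rw [c3, b1, b2, H982.ww_of_lt h1, H982.ww_of_lt h2]
      ring
    have d1 := c2 e
    rw [c4, c5] at d1
    rw [a3]
    linarith [c1 h1]
  · rw [if_neg hx]
    rw [not_lt, min_le_iff] at hx
    rcases hx with hx | hx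
    · exact a1 (by rw [b1, H982.ww_of_ge hx])
    · rw [a3]
      exact a2 (by rw [b2, H982.ww_of_ge hx])

/-- `ν_y φ = ∫_{g_y < δ} (n + κ g_y) φ + ∫ Γ(w_y, φ)`: minus the Laplacian of `w_y`, made
nonnegative (for `κ ≥ 2|K|/3`). -/
noncomputable def nuF (m : Measure M) (n : ℕ) (κ δ : ℝ) (y : M) (φ : M →ₘ[m] ℝ) : ℝ :=
  ∫ x in {x | gg y x < δ}, ((n : ℝ) + κ * gg y x) * φ x ∂m
    + I ((sob m).Γ (cl m (ww δ y)) φ)

theorem nuF_int (h : N2.RA.NSp m n K θ) (y : M) {φ : M →ₘ[m] ℝ} (hφ : φ ∈ (sob m).W) :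
    IntegrableOn (fun x => ((n : ℝ) + κ * gg y x) * φ x) {x | gg y x < δ} m := by
  have := H982.lc_integrable h.fin (n : ℝ) (-κ) δ y (h.isDir.memLp _ hφ)
  refine this.congr (Eventually.of_forall fun x => ?_)
  simp only
  ring

theorem nuF_nonneg (h : N2.RA.NSp m n K θ) (hκ : 2 * |K| / 3 ≤ κ) (hδ : 0 < δ) (y : M) {φ : M →ₘ[m] ℝ}
    (hφ : φ ∈ (sob m).W) (h0 : 0 ≤ φ) : 0 ≤ nuF m n κ δ y φ := by
  have h1 := H982.lc_int h hδ y hφ h0
  have h2 : ∫ x in {x | gg y x < δ}, ((n : ℝ) - 2 * K / 3 * gg y x) * φ x ∂m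
      ≤ ∫ x in {x | gg y x < δ}, ((n : ℝ) + κ * gg y x) * φ x ∂m := by
    refine integral_mono_ae (H982.lc_integrable h.fin _ _ δ y (h.isDir.memLp _ hφ))
      (nuF_int h y hφ) ?_
    filter_upwards [ae_restrict_of_ae (nonneg_iff_ae.1 h0)] with x hx
    have h3 := H982.gg_nonneg y x
    have h4 := neg_abs_le K
    have h5 : 0 ≤ (κ + 2 * K / 3) * (gg y x * φ x) :=
      mul_nonneg (by linarith) (mul_nonneg h3 hx)
    nlinarith
  unfold nuF
  linarith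

theorem nuF_sub (h : N2.RA.NSp m n K θ) (hδ : 0 < δ) (y : M) {φ ψ : M →ₘ[m] ℝ}
    (hφ : φ ∈ (sob m).W) (hψ : ψ ∈ (sob m).W) :
    nuF m n κ δ y (φ - ψ) = nuF m n κ δ y φ - nuF m n κ δ y ψ := by
  have hC := h.isDir
  have hW := (H982.ww_A (m := m) h.fin hδ.le y).1
  unfold nuF
  rw [hC.Γ_sub_right hW hφ hψ, I_sub (hC.Γ_mem1 hW hφ) (hC.Γ_mem1 hW hψ)]
  have e : ∫ x in {x | gg y x < δ}, ((n : ℝ) + κ * gg y x) * (φ - ψ : M →ₘ[m] ℝ) x ∂m
      = ∫ x in {x | gg y x < δ}, ((n : ℝ) + κ * gg y x) * φ x ∂m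
        - ∫ x in {x | gg y x < δ}, ((n : ℝ) + κ * gg y x) * ψ x ∂m := by
    rw [← integral_sub (nuF_int h y hφ) (nuF_int h y hψ)]
    refine integral_congr_ae ?_
    filter_upwards [ae_restrict_of_ae (sub_ae φ ψ)] with x hx
    rw [hx]; ring
  rw [e]
  ring

theorem nuF_add (h : N2.RA.NSp m n K θ) (hδ : 0 < δ) (y : M) {φ ψ : M →ₘ[m] ℝ}
    (hφ : φ ∈ (sob m).W) (hψ : ψ ∈ (sob m).W) :
    nuF m n κ δ y (φ + ψ) = nuF m n κ δ y φ + nuF m n κ δ y ψ := by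
  have hC := h.isDir
  have e : φ = (φ + ψ) - ψ := by abel
  have := nuF_sub (κ := κ) h hδ y (hC.add_mem _ hφ _ hψ) hψ
  rw [← e] at this
  linarith

theorem nuF_smul (h : N2.RA.NSp m n K θ) (hδ : 0 < δ) (y : M) (c : ℝ) {φ : M →ₘ[m] ℝ}
    (hφ : φ ∈ (sob m).W) : nuF m n κ δ y (c • φ) = c * nuF m n κ δ y φ := by
  have hC := h.isDir
  have hW := (H982.ww_A (m := m) h.fin hδ.le y).1
  unfold nuF
  rw [hC.Γ_smul_right c hW hφ, I_smul, mul_add, ← integral_const_mul]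
  congr 1
  refine integral_congr_ae ?_
  filter_upwards [ae_restrict_of_ae (smul_ae (f := φ) c)] with x hx
  rw [hx]; ring

theorem nuF_zero (h : N2.RA.NSp m n K θ) (hδ : 0 < δ) (y : M) :
    nuF m n κ δ y (0 : M →ₘ[m] ℝ) = 0 := by
  have := nuF_smul (κ := κ) h hδ y 0 h.isDir.zero_mem
  rwa [zero_smul, zero_mul] at this

theorem nuF_sum (h : N2.RA.NSp m n K θ) (hδ : 0 < δ) (y : M) {ι : Type*} (s : Finset ι)
    {φ : ι → M →ₘ[m] ℝ} (hφ : ∀ i ∈ s, φ i ∈ (sob m).W) :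
    (∑ i ∈ s, φ i) ∈ (sob m).W ∧
      nuF m n κ δ y (∑ i ∈ s, φ i) = ∑ i ∈ s, nuF m n κ δ y (φ i) := by
  classical
  induction s using Finset.induction_on with
  | empty => exact ⟨by simpa using h.isDir.zero_mem, by simpa using nuF_zero h hδ y⟩
  | insert a s ha ih =>
    have h1 := ih fun i hi => hφ i (Finset.mem_insert_of_mem hi)
    have h2 := hφ a (Finset.mem_insert_self a s)
    rw [Finset.sum_insert ha, Finset.sum_insert ha]
    exact ⟨h.isDir.add_mem _ h2 _ h1.1, by rw [nuF_add h hδ y h2 h1.1, h1.2]⟩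

/-- `ν_y φ` only depends on `φ` on `{g_y < δ}`. -/
theorem nuF_eq_zero (h : N2.RA.NSp m n K θ) (hδ : 0 < δ) (y : M) {φ : M →ₘ[m] ℝ}
    (hφ : φ ∈ (sob m).W) (h0 : ∀ᵐ x ∂m, gg y x < δ → φ x = 0) : nuF m n κ δ y φ = 0 := by
  have hC := h.isDir
  have hW := (H982.ww_A (m := m) h.fin hδ.le y).1
  have e1 : ∫ x in {x | gg y x < δ}, ((n : ℝ) + κ * gg y x) * φ x ∂m = 0 := by
    rw [← integral_zero (μ := m.restrict {x | gg y x < δ}) (α := M) (G := ℝ)]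
    refine integral_congr_ae ?_
    rw [Filter.EventuallyEq, ae_restrict_iff' (H982.measurableSet_gg δ y)]
    filter_upwards [h0] with x hx hx'
    rw [hx hx', mul_zero]
  have e2 : (sob m).Γ (cl m (ww δ y)) φ = 0 := by
    rw [eq_iff_ae]
    filter_upwards [hC.Γ_ae_zero hφ hW, hC.Γ_ae_zero hW hφ, h0, H982.ww_ae (m := m) hδ.le y,
      eq_iff_ae.1 (hC.symm _ hW _ hφ), zero_ae (M := M) (m := m)] with x a1 a2 a3 a4 a5 a6
    rw [a6]
    by_cases hx : gg y x < δ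
    · rw [a5]; exact a1 (a3 hx)
    · exact a2 (by rw [a4, H982.ww_of_ge (not_lt.1 hx)])
  unfold nuF
  rw [e1, e2, I_zero, add_zero]

/-- Monotonicity. -/
theorem nuF_mono (h : N2.RA.NSp m n K θ) (hκ : 2 * |K| / 3 ≤ κ) (hδ : 0 < δ) (y : M) {φ ψ : M →ₘ[m] ℝ}
    (hφ : φ ∈ (sob m).W) (hψ : ψ ∈ (sob m).W) (hle : ∀ᵐ x ∂m, gg y x < δ → φ x ≤ ψ x) :
    nuF m n κ δ y φ ≤ nuF m n κ δ y ψ := by
  have hC := h.isDir
  have hs := hC.sub_mem hψ hφ
  have hp := hC.pos_mem hs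
  have h1 := nuF_nonneg h hκ hδ y hp (by
    rw [nonneg_iff_ae]
    filter_upwards [AEEqFun.coeFn_sup (ψ - φ) 0, zero_ae (M := M) (m := m)] with x a1 a2
    rw [a1, a2]
    exact le_sup_right)
  have h2 : nuF m n κ δ y ((ψ - φ) - (ψ - φ) ⊔ 0) = 0 := by
    refine nuF_eq_zero h hδ y (hC.sub_mem hs hp) ?_
    filter_upwards [AEEqFun.coeFn_sup (ψ - φ) 0, zero_ae (M := M) (m := m), sub_ae ψ φ,
      sub_ae (ψ - φ) ((ψ - φ) ⊔ 0), hle] with x a1 a2 a3 a4 a5 hx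
    rw [a4, a1, a2, a3, sup_eq_left.2 (by linarith [a5 hx]), sub_self]
  rw [nuF_sub h hδ y hs hp, nuF_sub h hδ y hψ hφ] at h2
  linarith

/-- The radial formula. -/
theorem nuF_radial (h : N2.RA.NSp m n K θ) (hδ : 0 < δ) (hδ' : 0 < δ') (y : M) {η η' : ℝ → ℝ}
    (hη : Continuous η) (hη' : Continuous η')
    (hd : ∀ t ∈ Icc (-δ') δ', HasDerivWithinAt η (η' t) (Icc (-δ') δ') t) (h0 : η 0 = 0) :
    AEEqFun.comp η hη (cl m (ww δ' y)) ∈ (sob m).W ∧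
    (∀ᵐ x ∂m, AEEqFun.comp η hη (cl m (ww δ' y)) x = η (ww δ' y x)) ∧
    nuF m n κ δ y (AEEqFun.comp η hη (cl m (ww δ' y)))
      = ∫ x in {x | gg y x < δ}, (((n : ℝ) + κ * gg y x) * η (ww δ' y x)
        + (if gg y x < δ' then 2 * gg y x * η' (gg y x - δ') else 0)) ∂m := by
  have hC := h.isDir
  have hW := (H982.ww_A (m := m) h.fin hδ.le y).1
  have hW' := (H982.ww_A (m := m) h.fin hδ'.le y).1
  have hK : ∀ᵐ x ∂m, |cl m (ww δ' y) x| ≤ δ' := by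
    filter_upwards [H982.ww_ae (m := m) hδ'.le y] with x hx
    rw [hx]; exact H982.abs_ww_le hδ'.le y x
  obtain ⟨h1, h2⟩ := hC.chain_bdd hW' hK hη hη' hd h0
  have hae : ∀ᵐ x ∂m, AEEqFun.comp η hη (cl m (ww δ' y)) x = η (ww δ' y x) := by
    filter_upwards [AEEqFun.coeFn_comp η hη (cl m (ww δ' y)), H982.ww_ae (m := m) hδ'.le y]
      with x a1 a2
    rw [a1, Function.comp_apply, a2]
  refine ⟨h1, hae, ?_⟩
  have hG : ∀ᵐ x ∂m, (sob m).Γ (cl m (ww δ y)) (AEEqFun.comp η hη (cl m (ww δ' y))) x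
      = {x | gg y x < δ}.indicator
        (fun x => if gg y x < δ' then 2 * gg y x * η' (gg y x - δ') else 0) x := by
    filter_upwards [eq_iff_ae.1 (hC.symm _ hW _ h1), eq_iff_ae.1 (h2 _ hW),
      mul_ae (AEEqFun.comp η' hη' (cl m (ww δ' y))) ((sob m).Γ (cl m (ww δ' y)) (cl m (ww δ y))),
      AEEqFun.coeFn_comp η' hη' (cl m (ww δ' y)), H982.ww_ae (m := m) hδ'.le y,
      Γ_ww_ww h hδ' hδ y] with x a1 a2 a3 a4 a5 a6
    rw [a1, a2, a3, a4, Function.comp_apply, a5, a6]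
    by_cases hx : gg y x < δ
    · rw [indicator_of_mem (show x ∈ {x | gg y x < δ} from hx)]
      by_cases hx' : gg y x < δ'
      · rw [if_pos (lt_min hx' hx), if_pos hx', H982.ww_of_lt hx']
        ring
      · rw [if_neg (fun h => hx' (h.trans_le (min_le_left _ _))), if_neg hx', mul_zero]
    · rw [indicator_of_notMem (show x ∉ {x | gg y x < δ} from hx),
        if_neg (fun h => hx (h.trans_le (min_le_right _ _))), mul_zero]
  have hms := H982.measurableSet_gg δ y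
  have hi2 : Integrable ({x | gg y x < δ}.indicator
      (fun x => if gg y x < δ' then 2 * gg y x * η' (gg y x - δ') else 0)) m :=
    (int_of_mem (hC.Γ_mem1 hW h1)).congr hG
  have e2 : I ((sob m).Γ (cl m (ww δ y)) (AEEqFun.comp η hη (cl m (ww δ' y))))
      = ∫ x in {x | gg y x < δ}, (if gg y x < δ' then 2 * gg y x * η' (gg y x - δ') else 0) ∂m := by
    rw [← integral_indicator hms]
    exact integral_congr_ae hG
  unfold nuF
  rw [e2, ← integral_add (nuF_int h y h1) ((integrable_indicator_iff hms).1 hi2)]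
  refine integral_congr_ae ?_
  filter_upwards [ae_restrict_of_ae hae] with x hx
  rw [hx]

end Vale.Agent.P242.H744.Drop
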