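import Vale.Agent.P242.H744.NuC
import Vale.Agent.P242.H751.KBall
import Vale.Agent.P242.H757.Ratio

/-!
P242: smallness of the volume drop (block Drop) from the volume ratio at a regular point.
-/

set_option linter.all false

open MeasureTheory Filter Topology Set
open scoped ENNReal NNReal MeasureTheory

universe u

namespace Vale.Agent.P242.H744

open Vale.Agent.P233 Vale.Agent.P233.RA Vale.Agent.P242.H990

/-- from dyadic bounds to the integral -/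
theorem dyadic_int {f : ℝ → ℝ} (hf : ContinuousOn f (Ioi 0)) (hf0 : ∀ s, 0 < s → 0 ≤ f s)
    {σ C' B : ℝ} (hσ : 0 < σ) (hC : 0 ≤ C') {Q : ℕ → ℝ} (hQ : ∀ j, 0 ≤ Q j)
    (hb : ∀ (j : ℕ) (s : ℝ), (σ / 2 ^ (j + 1)) ^ 2 < s → s ≤ (σ / 2 ^ j) ^ 2 →
      f s ≤ (Q j + C' * s) / s) (hB : ∀ J, ∑ j ∈ Finset.range J, Q j ≤ B) :
    ∀ a, 0 < a → a ≤ σ ^ 2 → ∫ s in a..σ ^ 2, f s ≤ 3 * B + C' * σ ^ 2 := by
  set b : ℕ → ℝ := fun j => (σ / 2 ^ j) ^ 2 with hbd
  have b0 : ∀ j, 0 < b j := fun j => by simp only [hbd]; positivity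
  have bs : ∀ j, b j = 4 * b (j + 1) := by
    intro j
    simp only [hbd]
    have e : (2 : ℝ) ^ (j + 1) = 2 ^ j * 2 := pow_succ _ _
    rw [e]
    field_simp
    norm_num
  have ble : ∀ j, b (j + 1) ≤ b j := fun j => by
    have := b0 (j + 1)
    linarith [bs j]
  have bz : b 0 = σ ^ 2 := by simp [hbd]
  have bσ : ∀ j, b j ≤ σ ^ 2 := by
    intro j
    induction j with
    | zero => exact bz.le
    | succ j ih => exact (ble j).trans ih
  have key : ∀ J, ∫ s in (b J)..σ ^ 2, f s ≤ 3 * ∑ j ∈ Finset.range J, Q j + C' * (σ ^ 2 - b J) := by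
    intro J
    induction J with
    | zero => rw [bz, intervalIntegral.integral_same]; simp
    | succ J ih =>
      rw [← intervalIntegral.integral_add_adjacent_intervals (f_int hf (b0 (J + 1)) (ble J))
        (f_int hf (b0 J) (bσ J)), Finset.sum_range_succ]
      have h1 : ∫ s in (b (J + 1))..(b J), f s ≤ ∫ s in (b (J + 1))..(b J), (Q J / b (J + 1) + C') := by
        refine intervalIntegral.integral_mono_on_of_le_Ioo (ble J)
          (f_int hf (b0 (J + 1)) (ble J)) (by simp) ?_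
        intro s hs
        have hs0 : 0 < s := (b0 (J + 1)).trans hs.1
        refine (hb J s hs.1 hs.2.le).trans ?_
        rw [add_div, mul_div_assoc, div_self hs0.ne', mul_one]
        have := div_le_div_of_nonneg_left (hQ J) (b0 (J + 1)) hs.1.le
        linarith
      have h2 : ∫ s in (b (J + 1))..(b J), (Q J / b (J + 1) + C')
          = 3 * Q J + C' * (b J - b (J + 1)) := by
        rw [intervalIntegral.integral_const, smul_eq_mul]
        have h3 : b J - b (J + 1) = 3 * b (J + 1) := by linarith [bs J]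
        have h4 := (b0 (J + 1)).ne'
        rw [mul_add, h3]
        have : 3 * b (J + 1) * (Q J / b (J + 1)) = 3 * Q J := by field_simp
        rw [this]
        ring
      rw [h2] at h1
      linarith
  intro a ha haσ
  obtain ⟨J, hJ⟩ : ∃ J, b J ≤ a := by
    have h1 : Tendsto b atTop (𝓝 0) := by
      have h2 : Tendsto (fun j : ℕ => σ ^ 2 * (1 / 4 : ℝ) ^ j) atTop (𝓝 (σ ^ 2 * 0)) :=
        (tendsto_pow_atTop_nhds_zero_of_lt_one (by norm_num) (by norm_num)).const_mul _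
      rw [mul_zero] at h2
      refine h2.congr fun j => ?_
      simp only [hbd]
      have e : ((2 : ℝ) ^ j) ^ 2 = 4 ^ j := by
        rw [← pow_mul, mul_comm, pow_mul]
        norm_num
      rw [div_pow σ, e, div_pow, one_pow]
      ring
    obtain ⟨J, hJ⟩ := (h1.eventually (gt_mem_nhds ha)).exists
    exact ⟨J, hJ.le⟩
  have h1 : ∫ s in (b J)..σ ^ 2, f s = (∫ s in (b J)..a, f s) + ∫ s in a..σ ^ 2, f s :=
    (intervalIntegral.integral_add_adjacent_intervals (f_int hf (b0 J) hJ) (f_int hf ha haσ)).symm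
  have h2 : 0 ≤ ∫ s in (b J)..a, f s :=
    intervalIntegral.integral_nonneg hJ fun s hs => hf0 s (lt_of_lt_of_le (b0 J) hs.1)
  have h3 := key J
  have h4 := hB J
  have h5 : C' * (σ ^ 2 - b J) ≤ C' * σ ^ 2 :=
    mul_le_mul_of_nonneg_left (by linarith [b0 J]) hC
  linarith

variable {M : Type u} [MetricSpace M] [CompleteSpace M] [SecondCountableTopology M]
  [MeasurableSpace M] [BorelSpace M] {m : Measure M} {n : ℕ} {K A : ℝ} {o : M}
  {p : ℝ → M → M → ℝ}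

/-- the tail of the kernel -/
theorem tail_env (e : H71.Env m n K o A p) : ∃ C : ℝ, 1 ≤ C ∧ ∀ s, 0 < s → s ≤ 1 → ∀ x : M,
    ∫ z in {z | gg x z < 1 / 2}ᶜ, ph m p s x z ∂m ≤ C * s := by
  obtain ⟨C, hC, h⟩ := H751.tail_cd (hyp_of e.hyp) e.ker 0 le_rfl
  refine ⟨32 * C, by linarith, fun s hs hs1 x => ?_⟩
  have h1 := (h s hs hs1 x 1 zero_le_one).2
  have e1 : {z : M | gg x z < 1 / 2}ᶜ = {w | 1 ≤ dist x w} := by
    ext z
    simp only [mem_compl_iff, mem_setOf_eq, not_lt]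
    unfold gg
    rw [dist_comm z x]
    have := dist_nonneg (x := x) (y := z)
    constructor
    · intro h2
      nlinarith
    · intro h2
      nlinarith
  have e2 : ∫ z in {z | gg x z < 1 / 2}ᶜ, ph m p s x z ∂m
      = ∫ w in {w | 1 ≤ dist x w}, p s x w * Real.exp (0 * (dist x w / √s)) ∂m := by
    rw [e1]
    refine integral_congr_ae (ae_restrict_of_ae ?_)
    filter_upwards [ph_ae e.ker hs x] with w hw
    rw [hw, zero_mul, Real.exp_zero, mul_one]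
  rw [e2]
  refine h1.trans ?_
  have h2 : Real.exp (-(1 ^ 2 / (32 * s))) ≤ 32 * s := by
    rw [Real.exp_neg, inv_le_comm₀ (Real.exp_pos _) (by positivity), one_pow]
    have := Real.add_one_le_exp (1 / (32 * s))
    rw [← one_div]
    linarith
  have := mul_le_mul_of_nonneg_left h2 (by linarith : 0 ≤ C)
  linarith

/-- final arithmetic of `drop_env` -/
theorem drop_arith {N κ A' c1 c2 V Ct L1 L2 L3 Θ W δ₁ σ2 σn D V' : ℝ} (hN : 0 ≤ N) (hκ : 0 ≤ κ)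
    (hA' : 0 ≤ A') (hc1 : 0 ≤ c1) (hc2 : 0 ≤ c2) (hV0 : 0 ≤ V) (hCt : 0 ≤ Ct)
    (hL1 : L1 = 3 * A' * c1 * (N + κ * N + κ)) (hL2 : L2 = 3 * A' * c2 * (N + κ) * V)
    (hL3 : L3 = (N + κ) * Ct) (hW : 0 ≤ Θ - W) (hΘ : 0 ≤ Θ) (hδ₁ : 0 ≤ δ₁) (hσ : 0 ≤ σ2)
    (hσδ : σ2 ≤ δ₁) (hσn : σn ≤ σ2) (hσn0 : 0 ≤ σn) (hD : 0 ≤ D) (hV' : V' ≤ V) (hV'0 : 0 ≤ V') :
    3 * (A' * (c1 * (N * (Θ - W) + κ / 2 * (Θ * (2 * δ₁) * (N / 2) + Θ * σ2))
      + c2 * (N + κ * (1 / 2)) * V' * (σn * D))) + L3 * σ2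
      ≤ (L1 + L2 + L3 + 1) * ((Θ - W) + Θ * δ₁ + σ2 * (1 + D)) := by
  have a3 : 0 ≤ Θ * δ₁ := by positivity
  have b1 : N * (Θ - W) + κ / 2 * (Θ * (2 * δ₁) * (N / 2) + Θ * σ2)
      ≤ (N + κ * N + κ) * ((Θ - W) + Θ * δ₁) := by
    have b2 : κ * (Θ * σ2) ≤ κ * (Θ * δ₁) := by gcongr
    have b4 : 0 ≤ κ * N * (Θ * δ₁) := by positivity
    have b5 : 0 ≤ N * (Θ * δ₁) := by positivity
    have b6 : 0 ≤ κ * (Θ * δ₁) := by positivity
    have b7 : 0 ≤ (κ * N + κ) * (Θ - W) := mul_nonneg (by positivity) hW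
    linarith
  have a1 : 3 * (A' * (c1 * (N * (Θ - W) + κ / 2 * (Θ * (2 * δ₁) * (N / 2) + Θ * σ2))))
      ≤ L1 * ((Θ - W) + Θ * δ₁) := by
    have := mul_le_mul_of_nonneg_left b1 (by positivity : 0 ≤ 3 * A' * c1)
    rw [hL1]
    linarith
  have a2 : 3 * (A' * (c2 * (N + κ * (1 / 2)) * V' * (σn * D))) ≤ L2 * (σ2 * D) := by
    have b1 : N + κ * (1 / 2) ≤ N + κ := by linarith
    rw [hL2]
    calc 3 * (A' * (c2 * (N + κ * (1 / 2)) * V' * (σn * D)))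
        ≤ 3 * (A' * (c2 * (N + κ) * V * (σ2 * D))) := by gcongr
      _ = _ := by ring
  have hL10 : 0 ≤ L1 := by rw [hL1]; positivity
  have hL20 : 0 ≤ L2 := by rw [hL2]; positivity
  have hL30 : 0 ≤ L3 := by rw [hL3]; positivity
  have a5 : 0 ≤ σ2 * D := by positivity
  have a6 : 0 ≤ L1 * (σ2 * (1 + D)) := by positivity
  have a7 : 0 ≤ L2 * ((Θ - W) + Θ * δ₁ + σ2) := mul_nonneg hL20 (by linarith)
  have a8 : 0 ≤ L3 * ((Θ - W) + Θ * δ₁ + σ2 * D) := mul_nonneg hL30 (by linarith)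
  have a9 : 0 ≤ (Θ - W) + Θ * δ₁ + σ2 * (1 + D) := by linarith
  linarith

/-- **the drop integral** at a centre `x` with volume control up to the radius `√(2δ₁)` -/
theorem drop_env (e : H71.Env m n K o A p) : ∃ C : ℝ, 0 < C ∧ ∀ x ∈ Metric.ball o 1,
    ∀ δ₁ σ Θ : ℝ, 0 < δ₁ → δ₁ ≤ 1 / 2 → 0 < σ → σ ^ 2 ≤ δ₁ → σ ^ 2 ≤ A⁻¹ →
    (∀ t, 0 < t → t ≤ √(2 * δ₁) → (m (Metric.ball x t)).toReal ≤ Θ * t ^ n) →
    ∀ a, 0 < a → a ≤ σ ^ 2 → ∫ s in a..σ ^ 2, H71.nu m n K p x s x / s ≤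
      C * ((Θ - (m (Metric.ball x √(2 * δ₁))).toReal / √(2 * δ₁) ^ n) + Θ * δ₁
        + σ ^ 2 * (1 + δ₁⁻¹ ^ (n + 1))) := by
  obtain ⟨θ, t⟩ := nsp_of e.hyp
  obtain ⟨Ct, hCt, htail⟩ := tail_env e
  have hA := e.kb.pos
  have hA1 := e.kb.one_le
  have hn := e.hyp.two_le
  have hn0 : (0 : ℝ) ≤ n := Nat.cast_nonneg n
  have hC := (isGamma_of e.hyp).toIsDir
  set κ : ℝ := |K| + 1 with hκ
  have hK0 := abs_nonneg K
  have hκ0 : 0 < κ := by positivity
  set A' : ℝ := A * Real.exp A with hA'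
  have hA'0 : 0 < A' := by positivity
  set c : ℝ := 2 / A with hc
  have hc0 : 0 < c := by positivity
  set V : ℝ := (m (Metric.ball o 2)).toReal with hV
  have hV0 : 0 ≤ V := ENNReal.toReal_nonneg
  have hC1 : 0 ≤ Drop.C1 n c := by
    have := Drop.Cg_pos n hc0
    unfold Drop.C1
    positivity
  have hC2 : 0 ≤ Drop.C2 n c := by
    unfold Drop.C2
    positivity
  set L1 : ℝ := 3 * A' * Drop.C1 n c * (n + κ * n + κ) with hL1
  set L2 : ℝ := 3 * A' * Drop.C2 n c * (n + κ) * V with hL2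
  set L3 : ℝ := (n + κ) * Ct with hL3
  have hL10 : 0 ≤ L1 := by positivity
  have hL20 : 0 ≤ L2 := by positivity
  have hL30 : 0 ≤ L3 := by positivity
  refine ⟨L1 + L2 + L3 + 1, by positivity, ?_⟩
  intro x hx δ₁ σ Θ hδ₁ hδ₁' hσ hσ1 hσ2 hΘ
  have hdx : dist x o ≤ 1 := (Metric.mem_ball.1 hx).le
  have hcσ : σ ^ 2 ≤ c * (1 / 2) := by
    rw [hc]
    have : 2 / A * (1 / 2) = A⁻¹ := by field_simp
    rw [this]
    exact hσ2
  have hσh : σ ^ 2 ≤ 1 / 2 := hσ1.trans hδ₁'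
  obtain ⟨Q, hQ0, hQb, hQs⟩ := Drop.drop_sum t (κ := κ) (by linarith) hn
    (by norm_num : (0 : ℝ) < 1 / 2) hδ₁ hδ₁' hA'0 hc0 hσ hσ1 hcσ x hΘ
  have hf : ContinuousOn (fun s => H71.nu m n K p x s x / s) (Ioi 0) :=
    (nu_cont e x x).div continuousOn_id fun s hs => ne_of_gt hs
  have hf0 : ∀ s, 0 < s → 0 ≤ H71.nu m n K p x s x / s := fun s hs =>
    div_nonneg (nu_nonneg e x x hs) hs.le
  have hσj : ∀ j : ℕ, (σ / 2 ^ j) ^ 2 ≤ σ ^ 2 := fun j =>
    pow_le_pow_left₀ (by positivity) (div_le_self hσ.le (one_le_pow₀ (by norm_num))) 2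
  have hb : ∀ (j : ℕ) (s : ℝ), (σ / 2 ^ (j + 1)) ^ 2 < s → s ≤ (σ / 2 ^ j) ^ 2 →
      H71.nu m n K p x s x / s ≤ (Q j + L3 * s) / s := by
    intro j s hs1 hs2
    have hs0 : 0 < s := lt_of_le_of_lt (sq_nonneg _) hs1
    have hsσ : s ≤ σ ^ 2 := hs2.trans (hσj j)
    have hsh : s ≤ 1 / 2 := hsσ.trans hσh
    refine div_le_div_of_nonneg_right ?_ hs0.le
    unfold H71.nu
    rw [nuF_split t x (ph_mem1 e.ker hs0 x)]
    have h1 := hQb j s (ph m p s x) hs1 hs2 (ph_mem hC e.ker hs0 x) (by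
      filter_upwards [ph_ae e.ker hs0 x] with z hz _
      rw [hz]
      refine (e.kb.upper s hs0 hsh x z).trans ?_
      have e1 : dist x z ^ 2 / (A * s) = c * gg x z / s := by
        unfold gg
        rw [hc, dist_comm z x]
        field_simp
      rw [e1, inv_pow, hA']
      have e2 : Real.exp (A * dist x o) ≤ Real.exp A :=
        Real.exp_le_exp.2 (mul_le_of_le_one_right hA.le hdx)
      gcongr)
    have h2 := htail s hs0 (by linarith) x
    have h3 := mul_le_mul_of_nonneg_left h2 (by positivity : 0 ≤ (n : ℝ) + (|K| + 1) / 2)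
    have h4 : ((n : ℝ) + (|K| + 1) / 2) * (Ct * s) ≤ L3 * s := by
      rw [hL3]
      have : (n : ℝ) + (|K| + 1) / 2 ≤ n + κ := by rw [hκ]; linarith
      have := mul_le_mul_of_nonneg_right this (by positivity : 0 ≤ Ct * s)
      linarith
    linarith
  intro a ha haσ
  refine (dyadic_int hf hf0 hσ hL30 hQ0 hb hQs a ha haσ).trans ?_
  -- final arithmetic
  have hρ : 0 < √(2 * δ₁) := Real.sqrt_pos.2 (by linarith)
  have hΘ1 := hΘ _ hρ le_rfl
  set W : ℝ := (m (Metric.ball x √(2 * δ₁))).toReal / √(2 * δ₁) ^ n with hW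
  have hWΘ : 0 ≤ Θ - W := by
    rw [sub_nonneg, hW, div_le_iff₀ (by positivity)]
    exact hΘ1
  have hW0 : 0 ≤ W := by positivity
  have hΘ0 : 0 ≤ Θ := by linarith
  have hVx : (m (Metric.ball x √(2 * (1 / 2)))).toReal ≤ V := by
    have e1 : √(2 * (1 / 2 : ℝ)) = 1 := by norm_num
    rw [e1, hV]
    refine ENNReal.toReal_mono (t.fin o 2).ne (measure_mono ?_)
    intro z hz
    rw [Metric.mem_ball] at hz ⊢
    calc dist z o ≤ dist z x + dist x o := dist_triangle _ _ _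
      _ < 2 := by linarith
  have hσn : σ ^ (n + 2) ≤ σ ^ 2 := by
    have hσ1' : σ ≤ 1 := by
      by_contra hcon
      rw [not_le] at hcon
      nlinarith
    exact pow_le_pow_of_le_one hσ.le hσ1' (by omega)
  exact drop_arith hn0 hκ0.le hA'0.le hC1 hC2 hV0 (by linarith) hL1 hL2 hL3 hWΘ hΘ0 hδ₁.le
    (sq_nonneg σ) hσ1 hσn (by positivity) (by positivity) hVx ENNReal.toReal_nonneg

/-- Lower volume ratio at regular points. -/
def Blk_Low : Prop := H71.ForM.{u} fun M _ _ _ => ∀ (m : Measure M) (n : ℕ) (K : ℝ) (o : M) (A : ℝ)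
  (p : ℝ → M → M → ℝ), H71.Env m n K o A p → H719.IsRegular n o →
  ∀ δ : ℝ, 0 < δ → ∀ r₀ : ℝ, 0 < r₀ → ∃ r : ℝ, 0 < r ∧ r < r₀ ∧
    (1 - δ) * (2 * r) ^ n ≤ m.real (Metric.closedBall o r)

/-- **Blk_Drop** -/
theorem blk_Drop_of (hlow : Blk_Low.{u}) : H71.Blk_Drop.{u} := by
  intro M _ _ _ _ _ m n K o A p e hreg R Q δ hR hQ hδ
  obtain ⟨C, hC, hdrop⟩ := drop_env e
  have hA := e.kb.pos
  obtain rfl := e.hyp.haus
  have hlow' := hlow M (μH[(n : ℝ)]) n K o A p e hreg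
  obtain ⟨θ, t⟩ := nsp_of e.hyp
  have hn := e.hyp.two_le
  have hH := H866.CDVol.hyp_of_CD hn e.hyp.full t.fin (hyp_of e.hyp).rcd.cd
  -- parameters
  have h2n : (0 : ℝ) < 2 ^ n := by positivity
  set δ' : ℝ := min 1 (δ / (8 * C * 2 ^ n)) with hδ'
  have hδ'0 : 0 < δ' := lt_min one_pos (by positivity)
  have hδ'1 : δ' ≤ 1 := min_le_left _ _
  have hδ'2 : δ' ≤ δ / (8 * C * 2 ^ n) := min_le_right _ _
  obtain ⟨R₀, hR₀, hratio⟩ := H757.ratio_near hH (by omega) o hlow' hδ'0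
  set δ₁ : ℝ := min (1 / 2) (min (R₀ ^ 2 / 2) (δ / (8 * C * 2 ^ n))) with hδ₁
  have hδ₁0 : 0 < δ₁ := lt_min (by norm_num) (lt_min (by positivity) (by positivity))
  have hδ₁1 : δ₁ ≤ 1 / 2 := min_le_left _ _
  have hδ₁2 : δ₁ ≤ R₀ ^ 2 / 2 := (min_le_right _ _).trans (min_le_left _ _)
  have hδ₁3 : δ₁ ≤ δ / (8 * C * 2 ^ n) := (min_le_right _ _).trans (min_le_right _ _)
  have hρR : √(2 * δ₁) ≤ R₀ := by
    rw [← Real.sqrt_sq hR₀.le]
    exact Real.sqrt_le_sqrt (by linarith)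
  set E : ℝ := 1 + δ₁⁻¹ ^ (n + 1) with hE
  have hE0 : 0 < E := by positivity
  set S : ℝ := min δ₁ (min A⁻¹ (δ / (4 * C * E))) with hS
  have hS0 : 0 < S := lt_min hδ₁0 (lt_min (by positivity) (by positivity))
  refine ⟨min (min 1 R₀ / (2 * R)) (√(S / Q)), lt_min (by positivity) (Real.sqrt_pos.2 (by positivity)), ?_⟩
  intro ρ hρ hρ1 x hx a ha haQ
  have hRρ : R * ρ ≤ min 1 R₀ / 2 := by
    have h1 := hρ1.trans (min_le_left _ _)
    rw [le_div_iff₀ (by positivity)] at h1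
    linarith
  have hRρ1 : R * ρ < 1 := by
    have := min_le_left 1 R₀
    linarith
  have hRρ2 : R * ρ < R₀ := by
    have := min_le_right 1 R₀
    linarith
  have hx1 : x ∈ Metric.ball o 1 := Metric.ball_subset_ball hRρ1.le hx
  have hx2 : x ∈ Metric.ball o R₀ := Metric.ball_subset_ball hRρ2.le hx
  have hQρ : Q * ρ ^ 2 ≤ S := by
    have h1 := hρ1.trans (min_le_right _ _)
    have h2 : ρ ^ 2 ≤ S / Q := by
      have := pow_le_pow_left₀ hρ.le h1 2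
      rwa [Real.sq_sqrt (by positivity)] at this
    rw [le_div_iff₀ (by positivity)] at h2
    linarith
  set σ : ℝ := √(Q * ρ ^ 2) with hσ
  have hσ0 : 0 < σ := Real.sqrt_pos.2 (by positivity)
  have hσ2 : σ ^ 2 = Q * ρ ^ 2 := Real.sq_sqrt (by positivity)
  obtain ⟨-, hball⟩ := hratio x hx2
  have hΘ : ∀ t, 0 < t → t ≤ √(2 * δ₁) →
      ((μH[(n : ℝ)] : Measure M) (Metric.ball x t)).toReal ≤ (1 + δ') * 2 ^ n * t ^ n := by
    intro t ht htρ
    have := (hball t ht (htρ.trans hρR)).2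
    rw [mul_pow, ← mul_assoc] at this
    exact this
  have hρ0 : 0 < √(2 * δ₁) := Real.sqrt_pos.2 (by linarith)
  have hWlow : (1 - δ') * 2 ^ n ≤
      ((μH[(n : ℝ)] : Measure M) (Metric.ball x √(2 * δ₁))).toReal / √(2 * δ₁) ^ n := by
    rw [le_div_iff₀ (by positivity)]
    have := (hball _ hρ0 hρR).1
    rw [mul_pow, ← mul_assoc] at this
    exact this
  have hS1 : S ≤ δ₁ := min_le_left _ _
  have hS2 : S ≤ A⁻¹ := (min_le_right _ _).trans (min_le_left _ _)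
  have hS3 : S ≤ δ / (4 * C * E) := (min_le_right _ _).trans (min_le_right _ _)
  have hmain := hdrop x hx1 δ₁ σ ((1 + δ') * 2 ^ n) hδ₁0 hδ₁1 hσ0 (by rw [hσ2]; linarith)
    (by rw [hσ2]; linarith) hΘ a ha (by rw [hσ2]; exact haQ)
  rw [hσ2] at hmain
  refine hmain.trans ?_
  have b1 : (1 + δ') * 2 ^ n - ((μH[(n : ℝ)] : Measure M) (Metric.ball x √(2 * δ₁))).toReal
      / √(2 * δ₁) ^ n ≤ 2 * δ' * 2 ^ n := by linarith
  have b2 : C * (2 * δ' * 2 ^ n) ≤ δ / 4 := by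
    have := mul_le_mul_of_nonneg_left hδ'2 (by positivity : 0 ≤ C * 2 * 2 ^ n)
    have e1 : C * 2 * 2 ^ n * (δ / (8 * C * 2 ^ n)) = δ / 4 := by
      field_simp
      norm_num
    linarith
  have b3 : C * ((1 + δ') * 2 ^ n * δ₁) ≤ δ / 4 := by
    have h1 : (1 + δ') * 2 ^ n * δ₁ ≤ 2 * 2 ^ n * (δ / (8 * C * 2 ^ n)) := by
      gcongr
      linarith
    have := mul_le_mul_of_nonneg_left h1 hC.le
    have e1 : C * (2 * 2 ^ n * (δ / (8 * C * 2 ^ n))) = δ / 4 := by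
      field_simp
      norm_num
    linarith
  have b4 : C * (Q * ρ ^ 2 * E) ≤ δ / 4 := by
    have h1 : Q * ρ ^ 2 * E ≤ δ / (4 * C * E) * E :=
      mul_le_mul_of_nonneg_right (hQρ.trans hS3) hE0.le
    have := mul_le_mul_of_nonneg_left h1 hC.le
    have e1 : C * (δ / (4 * C * E) * E) = δ / 4 := by
      field_simp
    linarith
  have b5 := mul_le_mul_of_nonneg_left b1 hC.le
  have b6 : C * ((1 + δ') * 2 ^ n - ((μH[(n : ℝ)] : Measure M) (Metric.ball x √(2 * δ₁))).toReal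
      / √(2 * δ₁) ^ n + (1 + δ') * 2 ^ n * δ₁ + Q * ρ ^ 2 * E)
      = C * ((1 + δ') * 2 ^ n - ((μH[(n : ℝ)] : Measure M) (Metric.ball x √(2 * δ₁))).toReal
      / √(2 * δ₁) ^ n) + C * ((1 + δ') * 2 ^ n * δ₁) + C * (Q * ρ ^ 2 * E) := by ring
  rw [b6]
  linarith

end Vale.Agent.P242.H744
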