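import Mathlib.Analysis.InnerProductSpace.PiL2
import Mathlib.Analysis.SpecificLimits.Basic

/-!
P242, part B, package B-c: the limit of the approximating maps is bi-Lipschitz and open.
-/

open Set Metric Filter Topology

namespace Vale.Agent.P242.H744

universe u v

variable {X : Type u} [MetricSpace X] {E : Type v} [NormedAddCommGroup E] [NormedSpace ℝ E]

/-- The output of the step lemma, in the form used for the limit. `N k x v` is `|v|_{k,x}`. -/
structure Tower (X : Type u) [MetricSpace X] (E : Type v) [NormedAddCommGroup E]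
    [NormedSpace ℝ E] where
  /-- the scales -/
  r : ℕ → ℝ
  /-- the local norms -/
  N : ℕ → X → E → ℝ
  /-- the reference map -/
  u : X → E
  /-- the maps of the scheme -/
  F : ℕ → X → E
  /-- the derivatives of the scheme -/
  J : ℕ → X → E →L[ℝ] E
  /-- size of the errors in (h1) -/
  ε : ℝ
  ε0 : 0 ≤ ε
  r0 : ∀ k, 0 < r k
  r1 : ∀ k, r (k + 1) ≤ r k / 100
  rε : ∀ k, ε * r k ≤ r (k + 1) / 100
  diam : ∀ x y : X, dist x y ≤ r 0
  h1 : ∀ (k : ℕ) (x y : X), dist x y ≤ r k → |N k x (u y - u x) - dist x y| ≤ ε * r k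
  i1 : ∀ (k : ℕ) (x y : X), dist x y ≤ r k →
    ‖F k y - F k x - J k x (u y - u x)‖ ≤ 1 / 100 * r (k + 1)
  j1 : ∀ k x v, ‖J k x v‖ ≤ 51 / 50 * N k x v
  j2 : ∀ k x v, N k x v ≤ 51 / 50 * ‖J k x v‖
  i5 : ∀ (k : ℕ) (x y : X), r (k + 1) ≤ dist x y →
    4 / 5 * dist x y + 1 / 20 * r (k + 1) ≤ ‖F k x - F k y‖
  st : ∀ k x, ‖F (k + 1) x - F k x‖ ≤ r (k + 1) / 100

namespace Tower

variable (T : Tower X E)

lemma r_le (k m : ℕ) : T.r (k + m) ≤ T.r k / 100 ^ m := by
  induction m with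
  | zero => simp
  | succ m ih =>
    have h := T.r1 (k + m)
    rw [pow_succ, ← div_div, ← add_assoc]
    linarith

lemma r_anti {j k : ℕ} (h : j ≤ k) : T.r k ≤ T.r j := by
  obtain ⟨m, rfl⟩ := Nat.exists_eq_add_of_le h
  refine (T.r_le j m).trans ?_
  refine div_le_self (T.r0 j).le ?_
  exact one_le_pow₀ (by norm_num)

lemma r_tendsto : Tendsto T.r atTop (𝓝 0) := by
  have h1 : ∀ k, T.r k ≤ T.r 0 * (1 / 100) ^ k := by
    intro k
    have := T.r_le 0 k
    rw [zero_add] at this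
    refine this.trans (le_of_eq ?_)
    rw [one_div, inv_pow, div_eq_mul_inv]
  have h2 : Tendsto (fun k : ℕ => T.r 0 * (1 / 100 : ℝ) ^ k) atTop (𝓝 (T.r 0 * 0)) :=
    (tendsto_pow_atTop_nhds_zero_of_lt_one (by norm_num) (by norm_num)).const_mul _
  rw [mul_zero] at h2
  exact squeeze_zero (fun k => (T.r0 k).le) h1 h2

lemma F_dist (k m : ℕ) (x : X) :
    ‖T.F (k + m) x - T.F k x‖ ≤ T.r (k + 1) / 50 := by
  have h : ∀ m, ‖T.F (k + m) x - T.F k x‖ ≤ T.r (k + 1) / 50 * (1 - (1 / 2) ^ m) := by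
    intro m
    induction m with
    | zero => simp
    | succ m ih =>
      have h1 := T.st (k + m) x
      have h2 : T.r (k + m + 1) ≤ T.r (k + 1) * (1 / 2) ^ m := by
        have h3 := T.r_le (k + 1) m
        rw [show k + 1 + m = k + m + 1 by ring] at h3
        refine h3.trans ?_
        rw [div_eq_mul_inv]
        refine mul_le_mul_of_nonneg_left ?_ (T.r0 _).le
        rw [← inv_pow]
        exact pow_le_pow_left₀ (by norm_num) (by norm_num) m
      have h3 : ‖T.F (k + (m + 1)) x - T.F k x‖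
          ≤ ‖T.F (k + m + 1) x - T.F (k + m) x‖ + ‖T.F (k + m) x - T.F k x‖ := by
        have := norm_add_le (T.F (k + m + 1) x - T.F (k + m) x) (T.F (k + m) x - T.F k x)
        rwa [sub_add_sub_cancel] at this
      have h4 : T.r (k + 1) / 50 * (1 - (1 / 2) ^ (m + 1))
          = T.r (k + 1) / 50 * (1 - (1 / 2) ^ m) + T.r (k + 1) * (1 / 2) ^ m / 100 := by
        rw [pow_succ]; ring
      rw [h4]
      linarith
  refine (h m).trans ?_
  have h5 : (0 : ℝ) ≤ (1 / 2) ^ m := by positivity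
  have h6 := (T.r0 (k + 1)).le
  nlinarith [mul_nonneg h6 h5]

/-- There is a limit map. -/
lemma exists_limit [CompleteSpace E] :
    ∃ G : X → E, ∀ k x, ‖G x - T.F k x‖ ≤ T.r (k + 1) / 50 := by
  have hc : ∀ x, ∃ z, Tendsto (fun k => T.F k x) atTop (𝓝 z) := by
    intro x
    apply cauchySeq_tendsto_of_complete
    rw [Metric.cauchySeq_iff']
    intro e he
    have h1 := (T.r_tendsto.comp (tendsto_add_atTop_nat 1)).eventually (gt_mem_nhds he)
    obtain ⟨k, hk⟩ := h1.exists
    refine ⟨k, fun m hm => ?_⟩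
    obtain ⟨j, rfl⟩ := Nat.exists_eq_add_of_le hm
    rw [dist_eq_norm]
    have h2 := T.F_dist k j x
    have h3 : T.r (k + 1) < e := hk
    have h4 := (T.r0 (k + 1))
    linarith
  choose G hG using hc
  refine ⟨G, fun k x => ?_⟩
  have h1 : Tendsto (fun m => ‖T.F (k + m) x - T.F k x‖) atTop (𝓝 ‖G x - T.F k x‖) := by
    have h2 : Tendsto (fun m => T.F (k + m) x) atTop (𝓝 (G x)) := by
      have := (hG x).comp (tendsto_add_atTop_nat k)
      refine this.congr fun m => ?_
      simp [Function.comp, add_comm]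
    exact (h2.sub_const _).norm
  exact le_of_tendsto' h1 fun m => T.F_dist k m x

lemma exists_scale {d : ℝ} (hd : 0 < d) (hd0 : d ≤ T.r 0) : ∃ k, T.r (k + 1) ≤ d ∧ d ≤ T.r k := by
  have h1 : ∃ k, T.r (k + 1) ≤ d := by
    have := (T.r_tendsto.comp (tendsto_add_atTop_nat 1)).eventually (ge_mem_nhds hd)
    exact this.exists
  classical
  refine ⟨Nat.find h1, Nat.find_spec h1, ?_⟩
  rcases h : Nat.find h1 with _ | k
  · exact hd0
  · have h2 := Nat.find_min h1 (m := k) (by omega)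
    exact (not_le.1 h2).le

lemma F_upper {k : ℕ} {x y : X} (h1 : T.r (k + 1) ≤ dist x y) (h2 : dist x y ≤ T.r k) :
    ‖T.F k x - T.F k y‖ ≤ 11 / 10 * dist x y := by
  have h3 := T.i1 k x y h2
  have h4 := T.j1 k x (T.u y - T.u x)
  have h5 := abs_le.1 (T.h1 k x y h2)
  have h6 := T.rε k
  have h7 : ‖T.F k y - T.F k x‖ ≤ ‖T.F k y - T.F k x - T.J k x (T.u y - T.u x)‖
      + ‖T.J k x (T.u y - T.u x)‖ := by
    have := norm_add_le (T.F k y - T.F k x - T.J k x (T.u y - T.u x)) (T.J k x (T.u y - T.u x))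
    rwa [sub_add_cancel] at this
  rw [norm_sub_rev]
  have h8 := T.r0 (k + 1)
  linarith [h5.2]

/-- The limit map is bi-Lipschitz. -/
lemma biLip {G : X → E} (hG : ∀ k x, ‖G x - T.F k x‖ ≤ T.r (k + 1) / 50) (x y : X) :
    1 / 2 * dist x y ≤ ‖G x - G y‖ ∧ ‖G x - G y‖ ≤ 2 * dist x y := by
  rcases eq_or_ne x y with rfl | hxy
  · simp
  · have hd : 0 < dist x y := dist_pos.2 hxy
    obtain ⟨k, h1, h2⟩ := T.exists_scale hd (T.diam x y)
    have h3 := T.F_upper h1 h2
    have h4 := T.i5 k x y h1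
    have h5 := hG k x
    have h6 := hG k y
    have h7 : ‖G x - G y‖ ≤ ‖G x - T.F k x‖ + ‖T.F k x - T.F k y‖ + ‖G y - T.F k y‖ := by
      have e : G x - G y = (G x - T.F k x) + (T.F k x - T.F k y) - (G y - T.F k y) := by abel
      rw [e]
      exact (norm_sub_le _ _).trans (add_le_add (norm_add_le _ _) le_rfl)
    have h8 : ‖T.F k x - T.F k y‖ ≤ ‖G x - T.F k x‖ + ‖G x - G y‖ + ‖G y - T.F k y‖ := by
      have e : T.F k x - T.F k y = -(G x - T.F k x) + (G x - G y) + (G y - T.F k y) := by abel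
      rw [e]
      refine (norm_add_le _ _).trans (add_le_add ((norm_add_le _ _).trans ?_) le_rfl)
      rw [norm_neg]
    have h9 := T.r0 (k + 1)
    constructor <;> linarith

/-- Density at the point `x₀` below the scale `k`. -/
def Dense (x₀ : X) (k : ℕ) : Prop :=
  ∀ y, dist x₀ y < 10 * T.r k → ∀ j, k ≤ j → ∀ v, T.N j y v ≤ 3 / 5 * T.r j →
    ∃ y', dist y y' ≤ T.r j ∧ T.N j y (T.u y' - T.u y - v) ≤ 2 * (T.ε * T.r j)

/-- Openness of the limit map. -/
lemma open_of_dense' [CompleteSpace X] {G : X → E}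
    (hG : ∀ k x, ‖G x - T.F k x‖ ≤ T.r (k + 1) / 50)
    (hJ : ∀ k x w, ∃ v, T.J k x v = w) {x₀ : X} {k : ℕ} (hD : T.Dense x₀ k) {z : E}
    (hz : ‖z - G x₀‖ ≤ T.r k / 4) : ∃ x, dist x₀ x ≤ 8 * T.r k ∧ G x = z := by
  -- one step
  have step : ∀ j, k ≤ j → ∀ x, dist x₀ x ≤ 8 * T.r k → ‖T.F j x - z‖ ≤ 1 / 2 * T.r j →
      ∃ y, dist x y ≤ T.r j ∧ ‖T.F (j + 1) y - z‖ ≤ 1 / 2 * T.r (j + 1) := by
    intro j hj x hx hxz
    obtain ⟨v, hv⟩ := hJ j x (z - T.F j x)
    have h1 : T.N j x v ≤ 3 / 5 * T.r j := by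
      have h2 := T.j2 j x v
      rw [hv, norm_sub_rev] at h2
      have := T.r0 j
      linarith
    have hx' : dist x₀ x < 10 * T.r k := by
      have := T.r0 k
      linarith
    obtain ⟨y, hy1, hy2⟩ := hD x hx' j hj v h1
    refine ⟨y, hy1, ?_⟩
    have h3 := T.i1 j x y hy1
    have h4 := T.j1 j x (T.u y - T.u x - v)
    have h5 : ‖T.F j y - z‖ ≤ ‖T.F j y - T.F j x - T.J j x (T.u y - T.u x)‖
        + ‖T.J j x (T.u y - T.u x - v)‖ := by
      have e : T.F j y - z = (T.F j y - T.F j x - T.J j x (T.u y - T.u x))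
          + T.J j x (T.u y - T.u x - v) := by
        rw [map_sub (T.J j x) (T.u y - T.u x) v, hv]
        abel
      calc ‖T.F j y - z‖ = _ := by rw [e]
        _ ≤ _ := norm_add_le _ _
    have h6 := T.st j y
    have h7 : ‖T.F (j + 1) y - z‖ ≤ ‖T.F (j + 1) y - T.F j y‖ + ‖T.F j y - z‖ := by
      have := norm_add_le (T.F (j + 1) y - T.F j y) (T.F j y - z)
      rwa [sub_add_sub_cancel] at this
    have h8 := T.rε j
    have h9 := T.r0 (j + 1)
    linarith
  -- the start
  have start : ‖T.F k x₀ - z‖ ≤ 1 / 2 * T.r k := by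
    have h1 := hG k x₀
    have h2 : ‖T.F k x₀ - z‖ ≤ ‖G x₀ - T.F k x₀‖ + ‖z - G x₀‖ := by
      have e : T.F k x₀ - z = -((G x₀ - T.F k x₀) + (z - G x₀)) := by abel
      rw [e, norm_neg]
      exact norm_add_le _ _
    have h3 := T.r1 k
    have h4 := T.r0 k
    linarith
  -- the sequence
  have hS : ∀ m, ∀ x, dist x₀ x ≤ 8 * T.r k → ‖T.F (k + m) x - z‖ ≤ 1 / 2 * T.r (k + m) →
      ∃ y, dist x y ≤ T.r (k + m) ∧ ‖T.F (k + m + 1) y - z‖ ≤ 1 / 2 * T.r (k + m + 1) :=
    fun m x h1 h2 => step (k + m) (Nat.le_add_right _ _) x h1 h2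
  classical
  let nxt : ℕ → X → X := fun m x =>
    if h : dist x₀ x ≤ 8 * T.r k ∧ ‖T.F (k + m) x - z‖ ≤ 1 / 2 * T.r (k + m) then
      (hS m x h.1 h.2).choose else x
  let s : ℕ → X := fun m => Nat.rec x₀ (fun m x => nxt m x) m
  have s0 : s 0 = x₀ := rfl
  have s1 : ∀ m, s (m + 1) = nxt m (s m) := fun m => rfl
  have key : ∀ m, dist x₀ (s m) ≤ 2 * T.r k * (1 - (1 / 2) ^ m) ∧
      ‖T.F (k + m) (s m) - z‖ ≤ 1 / 2 * T.r (k + m) := by
    intro m
    induction m with
    | zero => rw [s0]; simpa using start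
    | succ m ih =>
      have h0 : (0 : ℝ) ≤ (1 / 2) ^ m := by positivity
      have hrk := T.r0 k
      have h1 : dist x₀ (s m) ≤ 8 * T.r k := by
        nlinarith [ih.1, mul_nonneg hrk.le h0]
      have h2 : nxt m (s m) = (hS m (s m) h1 ih.2).choose := dif_pos ⟨h1, ih.2⟩
      have h3 := (hS m (s m) h1 ih.2).choose_spec
      rw [s1, h2]
      refine ⟨?_, h3.2⟩
      have h4 : T.r (k + m) ≤ T.r k * (1 / 2) ^ m := by
        refine (T.r_le k m).trans ?_
        rw [div_eq_mul_inv]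
        refine mul_le_mul_of_nonneg_left ?_ hrk.le
        rw [← inv_pow]
        exact pow_le_pow_left₀ (by norm_num) (by norm_num) m
      have h5 := dist_triangle x₀ (s m) (hS m (s m) h1 ih.2).choose
      have h6 : 2 * T.r k * (1 - (1 / 2) ^ (m + 1))
          = 2 * T.r k * (1 - (1 / 2) ^ m) + T.r k * (1 / 2) ^ m := by
        rw [pow_succ]; ring
      rw [h6]
      linarith [ih.1, h3.1]
  have hstep : ∀ m, dist (s m) (s (m + 1)) ≤ T.r k * (1 / 2) ^ m := by
    intro m
    have h0 : (0 : ℝ) ≤ (1 / 2) ^ m := by positivity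
    have hrk := T.r0 k
    have ih := key m
    have h1 : dist x₀ (s m) ≤ 8 * T.r k := by
      nlinarith [ih.1, mul_nonneg hrk.le h0]
    have h2 : nxt m (s m) = (hS m (s m) h1 ih.2).choose := dif_pos ⟨h1, ih.2⟩
    have h3 := (hS m (s m) h1 ih.2).choose_spec
    rw [s1, h2]
    refine h3.1.trans ((T.r_le k m).trans ?_)
    rw [div_eq_mul_inv]
    refine mul_le_mul_of_nonneg_left ?_ hrk.le
    rw [← inv_pow]
    exact pow_le_pow_left₀ (by norm_num) (by norm_num) m
  have hcau : CauchySeq s := cauchySeq_of_le_geometric (1 / 2) (T.r k) (by norm_num) hstep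
  obtain ⟨x, hx⟩ := cauchySeq_tendsto_of_complete hcau
  refine ⟨x, ?_, ?_⟩
  · have h1 : Tendsto (fun m => dist x₀ (s m)) atTop (𝓝 (dist x₀ x)) :=
      tendsto_const_nhds.dist hx
    refine le_of_tendsto' h1 fun m => ?_
    have h0 : (0 : ℝ) ≤ (1 / 2) ^ m := by positivity
    have hrk := T.r0 k
    nlinarith [(key m).1, mul_nonneg hrk.le h0]
  · have hcont : Continuous G := by
      refine (LipschitzWith.of_dist_le_mul (K := 2) fun a b => ?_).continuous
      rw [dist_eq_norm]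
      exact (T.biLip hG a b).2
    have h1 : Tendsto (fun m => G (s m)) atTop (𝓝 (G x)) := (hcont.tendsto x).comp hx
    have h2 : Tendsto (fun m => G (s m)) atTop (𝓝 z) := by
      rw [tendsto_iff_norm_sub_tendsto_zero]
      have h3 : ∀ m, ‖G (s m) - z‖ ≤ 2 * T.r (k + m) := by
        intro m
        have h4 := hG (k + m) (s m)
        have h5 := (key m).2
        have h6 : ‖G (s m) - z‖ ≤ ‖G (s m) - T.F (k + m) (s m)‖ + ‖T.F (k + m) (s m) - z‖ := by
          have := norm_add_le (G (s m) - T.F (k + m) (s m)) (T.F (k + m) (s m) - z)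
          rwa [sub_add_sub_cancel] at this
        have h7 := T.r1 (k + m)
        have h8 := T.r0 (k + m)
        linarith
      have h4 : Tendsto (fun m => 2 * T.r (k + m)) atTop (𝓝 (2 * 0)) := by
        refine Tendsto.const_mul _ ?_
        have := T.r_tendsto.comp (tendsto_add_atTop_nat k)
        refine this.congr fun m => ?_
        simp [Function.comp, add_comm]
      rw [mul_zero] at h4
      exact squeeze_zero (fun m => norm_nonneg _) h3 h4
    exact tendsto_nhds_unique h1 h2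

lemma open_of_dense [CompleteSpace X] {G : X → E}
    (hG : ∀ k x, ‖G x - T.F k x‖ ≤ T.r (k + 1) / 50)
    (hJ : ∀ k x w, ∃ v, T.J k x v = w) {x₀ : X} {k : ℕ} (hD : T.Dense x₀ k) {z : E}
    (hz : ‖z - G x₀‖ ≤ T.r k / 4) : ∃ x, dist x₀ x ≤ 10 * T.r k ∧ G x = z := by
  obtain ⟨x, h1, h2⟩ := T.open_of_dense' hG hJ hD hz
  have := T.r0 k
  exact ⟨x, by linarith, h2⟩

/-- **Part B, conclusion**: the limit map is a bi-Lipschitz chart on every open set of points at
which the density hypothesis holds at arbitrarily small scales. -/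
theorem chart [CompleteSpace X] [CompleteSpace E] (hJ : ∀ k x w, ∃ v, T.J k x v = w)
    {U : Set X} (hU : IsOpen U) (hD : ∀ x ∈ U, ∀ k₀, ∃ k, k₀ ≤ k ∧ T.Dense x k) :
    ∃ (V : Set E) (F : U ≃ₜ V), IsOpen V ∧
      ∀ x z : U, (2 : ℝ)⁻¹ * dist x z ≤ dist (F x) (F z) ∧ dist (F x) (F z) ≤ 2 * dist x z := by
  obtain ⟨G, hG⟩ := T.exists_limit
  have hb := T.biLip hG
  have hopen : IsOpen (G '' U) := by
    rw [Metric.isOpen_iff]
    rintro _ ⟨x, hx, rfl⟩
    obtain ⟨e, he, hball⟩ := Metric.isOpen_iff.1 hU x hx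
    have h1 : ∀ᶠ k in atTop, T.r k < e / 20 :=
      T.r_tendsto.eventually (gt_mem_nhds (by positivity))
    obtain ⟨k₀, hk₀⟩ := eventually_atTop.1 h1
    obtain ⟨k, hk, hDk⟩ := hD x hx k₀
    refine ⟨T.r k / 4, by have := T.r0 k; positivity, fun z hz => ?_⟩
    rw [mem_ball, dist_eq_norm] at hz
    obtain ⟨y, hy1, hy2⟩ := T.open_of_dense hG hJ hDk hz.le
    refine ⟨y, hball ?_, hy2⟩
    rw [mem_ball, dist_comm]
    have := hk₀ k hk
    linarith
  have hinj : Function.Injective (U.domRestrict G) := by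
    intro a b hab
    have h := (hb a b).1
    have h2 : G a = G b := hab
    rw [h2, sub_self, norm_zero] at h
    apply Subtype.ext
    apply dist_le_zero.1
    linarith
  have hemb : Topology.IsEmbedding (U.domRestrict G) := by
    have hl : LipschitzWith 2 (U.domRestrict G) := LipschitzWith.of_dist_le_mul fun a b => by
      rw [dist_eq_norm]
      exact (hb a b).2
    have ha : AntilipschitzWith 2 (U.domRestrict G) := AntilipschitzWith.of_le_mul_dist fun a b => by
      have h := (hb a b).1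
      rw [dist_eq_norm]
      have e : dist a b = dist (a : X) (b : X) := rfl
      rw [e]
      have e3 : ‖U.domRestrict G a - U.domRestrict G b‖ = ‖G a - G b‖ := rfl
      rw [e3, NNReal.coe_ofNat]
      linarith
    exact (ha.isUniformEmbedding hl.uniformContinuous).isEmbedding
  have hr : Set.range (U.domRestrict G) = G '' U := Set.range_domRestrict _ _
  refine ⟨Set.range (U.domRestrict G), hemb.toHomeomorph, by rw [hr]; exact hopen, ?_⟩
  intro x z
  have h := hb x z
  have e : dist (hemb.toHomeomorph x) (hemb.toHomeomorph z) = ‖G x - G z‖ := by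
    rw [← dist_eq_norm]
    rfl
  rw [e]
  have e2 : dist x z = dist (x : X) (z : X) := rfl
  rw [e2]
  constructor
  · have := h.1
    linarith
  · exact h.2

end Tower

end Vale.Agent.P242.H744
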