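import Vale.Agent.P242.H744.DropA
import Vale.Agent.P242.H254.Layer

/-!
P242, block VolDrop, part B: the value of `ν_y` on `((2 g + r²)^{-n/2} - (2 δ₁ + r²)^{-n/2})₊`.
-/

set_option linter.all false

open MeasureTheory Filter Topology Set
open scoped ENNReal NNReal MeasureTheory

universe u

namespace Vale.Agent.P242.H744.Drop

open Vale.Agent.P233 Vale.Agent.P233.N2 Vale.Agent.P233.N2.RA

/-- `q r t = √(t² + r²)` -/
noncomputable def qq (r t : ℝ) : ℝ := √(t ^ 2 + r ^ 2)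

theorem qq_pos {r : ℝ} (hr : 0 < r) (t : ℝ) : 0 < qq r t := by
  unfold qq; positivity

theorem qq_sq (r t : ℝ) : qq r t ^ 2 = t ^ 2 + r ^ 2 := by
  unfold qq; exact Real.sq_sqrt (by positivity)

theorem qq_cont (r : ℝ) : Continuous (qq r) := by
  unfold qq; fun_prop

theorem le_qq (r : ℝ) {t : ℝ} (ht : 0 ≤ t) : t ≤ qq r t := by
  unfold qq
  exact Real.le_sqrt_of_sq_le (by nlinarith [sq_nonneg r])

theorem qq_deriv {r : ℝ} (hr : 0 < r) (t : ℝ) : HasDerivAt (qq r) (t / qq r t) t := by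
  have h1 : HasDerivAt (fun t : ℝ => t ^ 2 + r ^ 2) (2 * t) t := by
    simpa using (hasDerivAt_pow 2 t).add_const (r ^ 2)
  have h2 := h1.sqrt (by positivity)
  refine h2.congr_deriv ?_
  unfold qq
  rw [mul_div_mul_left _ _ two_ne_zero]

/-- derivative of `q⁻¹ ^ k` -/
theorem qq_inv_deriv {r : ℝ} (hr : 0 < r) (k : ℕ) (t : ℝ) :
    HasDerivAt (fun t => (qq r t)⁻¹ ^ k) (-(k * t * (qq r t)⁻¹ ^ (k + 2))) t := by
  have hq := qq_pos hr t
  have h1 := ((qq_deriv hr t).inv hq.ne').pow k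
  refine h1.congr_deriv ?_
  rcases k with _ | k
  · simp
  · rw [Nat.add_sub_cancel]
    simp only [Pi.inv_apply]
    rw [show k + 1 + 2 = k + 3 by ring, pow_add _ k 3]
    field_simp

variable {M : Type u} [MetricSpace M] [MeasurableSpace M] [BorelSpace M]
  [SecondCountableTopology M] {m : Measure M}

theorem meas_dist (y : M) : Measurable fun x : M => dist x y :=
  (continuous_id.dist continuous_const).measurable

/-- `∫_{B_ρ} n r² q^{-n-2} ≤ Θ n (ρ/q(ρ))^n` -/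
theorem vol_int1 (hfin : ∀ (x : M) (r : ℝ), m (Metric.ball x r) < ∞) (y : M) {n : ℕ} (hn : 1 ≤ n)
    {r ρ Θ : ℝ} (hr : 0 < r) (hρ : 0 < ρ)
    (hΘ : ∀ t, 0 < t → t ≤ ρ → (m (Metric.ball y t)).toReal ≤ Θ * t ^ n) :
    ∫ x in Metric.ball y ρ, (n : ℝ) * r ^ 2 * (qq r (dist x y))⁻¹ ^ (n + 2) ∂m
      ≤ Θ * n * (ρ * (qq r ρ)⁻¹) ^ n := by
  have e0 : Metric.ball y ρ = {x | dist x y < ρ} := rfl
  have hp : Continuous fun t : ℝ => (n : ℝ) * r ^ 2 * ((n + 2 : ℕ) * t * (qq r t)⁻¹ ^ (n + 2 + 2)) := by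
    have h1 : Continuous fun t : ℝ => (qq r t)⁻¹ :=
      (qq_cont r).inv₀ fun t => (qq_pos hr t).ne'
    fun_prop
  have h := H254.layer (m := m) (meas_dist y) (fun x => dist_nonneg) hρ (by rw [← e0]; exact hfin y ρ)
    (ψ := fun t => (n : ℝ) * r ^ 2 * (qq r t)⁻¹ ^ (n + 2))
    (p := fun t => (n : ℝ) * r ^ 2 * ((n + 2 : ℕ) * t * (qq r t)⁻¹ ^ (n + 2 + 2)))
    (B := fun t => Θ * t ^ n) ?_ hp ?_ (by fun_prop) ?_
  · rw [e0]
    refine h.trans ?_
    have hV : (m {x | dist x y < ρ}).toReal ≤ Θ * ρ ^ n := hΘ ρ hρ le_rfl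
    have hq := qq_pos hr ρ
    have h1 : (n : ℝ) * r ^ 2 * (qq r ρ)⁻¹ ^ (n + 2) * (m {x | dist x y < ρ}).toReal
        ≤ (n : ℝ) * r ^ 2 * (qq r ρ)⁻¹ ^ (n + 2) * (Θ * ρ ^ n) :=
      mul_le_mul_of_nonneg_left hV (by positivity)
    have h2 : ∫ t in (0 : ℝ)..ρ, (n : ℝ) * r ^ 2 * ((n + 2 : ℕ) * t * (qq r t)⁻¹ ^ (n + 2 + 2))
        * (Θ * t ^ n) = (Θ * (n * (ρ * (qq r ρ)⁻¹) ^ n - n * r ^ 2 * (qq r ρ)⁻¹ ^ (n + 2) * ρ ^ n))
          - (Θ * (n * (0 * (qq r 0)⁻¹) ^ n - n * r ^ 2 * (qq r 0)⁻¹ ^ (n + 2) * 0 ^ n)) := by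
      refine intervalIntegral.integral_eq_sub_of_hasDerivAt
        (f := fun t => Θ * (n * (t * (qq r t)⁻¹) ^ n - n * r ^ 2 * (qq r t)⁻¹ ^ (n + 2) * t ^ n))
        (fun t _ => ?_) ?_
      · have hq := qq_pos hr t
        have hs := qq_sq r t
        have d1 := qq_inv_deriv hr (n + 2) t
        have d2 := qq_inv_deriv hr n t
        have d3 : HasDerivAt (fun t : ℝ => t ^ n) ((n : ℝ) * t ^ (n - 1)) t := hasDerivAt_pow n t
        have d4 := ((d3.mul d2).const_mul (n : ℝ)).sub (((d1.const_mul ((n : ℝ) * r ^ 2)).mul d3))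
        have d5 := d4.const_mul Θ
        refine (d5.congr_of_eventuallyEq (Eventually.of_forall fun t => ?_)).congr_deriv ?_
        · simp only [Pi.sub_apply, Pi.mul_apply, mul_pow]
        · obtain ⟨k, rfl⟩ : ∃ k, n = k + 1 := ⟨n - 1, by omega⟩
          rw [Nat.add_sub_cancel]
          have e1 : (qq r t)⁻¹ ^ (k + 1) = (qq r t ^ 2) * (qq r t)⁻¹ ^ (k + 3) := by
            rw [show k + 3 = k + 1 + 2 by ring, pow_add _ (k + 1) 2]
            field_simp
          have e2 : (qq r t)⁻¹ ^ (k + 1 + 2) = (qq r t)⁻¹ ^ (k + 3) := by ring_nf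
          rw [e1, e2, hs]
          push_cast
          ring
      · exact (hp.mul (by fun_prop)).intervalIntegrable _ _
    rw [h2]
    have h3 : ((0 : ℝ) * (qq r 0)⁻¹) ^ n = 0 := by
      rw [zero_mul, zero_pow (by omega)]
    have h4 : (0 : ℝ) ^ n = 0 := zero_pow (by omega)
    rw [h3, h4]
    refine (add_le_add h1 le_rfl).trans (le_of_eq ?_)
    ring
  · intro t ht
    have := ((qq_inv_deriv hr (n + 2) t).const_mul ((n : ℝ) * r ^ 2))
    refine (this.congr_deriv ?_).hasDerivWithinAt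
    ring
  · intro t ht
    have := qq_pos hr t
    have := ht.1
    positivity
  · intro t ht
    rcases eq_or_lt_of_le ht.1 with h0 | h0
    · rw [← h0]
      have : {x : M | dist x y < 0} = ∅ := by
        ext x; simp [dist_nonneg]
      rw [this]
      simp only [measure_empty, ENNReal.toReal_zero]
      rw [zero_pow (by omega), mul_zero]
    · exact hΘ t h0 ht.2

/-- `∫_{B_ρ} q² q^{-n} ≤ Θ ρ² n / 2` -/
theorem vol_int2 (hfin : ∀ (x : M) (r : ℝ), m (Metric.ball x r) < ∞) (y : M) {n : ℕ} (hn : 2 ≤ n)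
    {r ρ Θ : ℝ} (hr : 0 < r) (hρ : 0 < ρ)
    (hΘ : ∀ t, 0 < t → t ≤ ρ → (m (Metric.ball y t)).toReal ≤ Θ * t ^ n) :
    ∫ x in Metric.ball y ρ, qq r (dist x y) ^ 2 * (qq r (dist x y))⁻¹ ^ n ∂m
      ≤ Θ * ρ ^ 2 * (n / 2) + Θ * r ^ 2 := by
  have hn2 : (2 : ℝ) ≤ n := by exact_mod_cast hn
  have hΘ0 : 0 ≤ Θ := by
    have h1 := hΘ ρ hρ le_rfl
    have h2 : 0 < ρ ^ n := by positivity
    have h3 : 0 ≤ Θ * ρ ^ n := ENNReal.toReal_nonneg.trans h1
    exact nonneg_of_mul_nonneg_left h3 h2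
  have e0 : Metric.ball y ρ = {x | dist x y < ρ} := rfl
  have hqi : Continuous fun t : ℝ => (qq r t)⁻¹ :=
    (qq_cont r).inv₀ fun t => (qq_pos hr t).ne'
  have hp : Continuous fun t : ℝ => ((n : ℝ) - 2) * t * (qq r t)⁻¹ ^ n := by fun_prop
  have h := H254.layer (m := m) (meas_dist y) (fun x => dist_nonneg) hρ (by rw [← e0]; exact hfin y ρ)
    (ψ := fun t => qq r t ^ 2 * (qq r t)⁻¹ ^ n)
    (p := fun t => ((n : ℝ) - 2) * t * (qq r t)⁻¹ ^ n)
    (B := fun t => Θ * t ^ n) ?_ hp ?_ (by fun_prop) ?_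
  · rw [e0]
    refine h.trans ?_
    have hV : (m {x | dist x y < ρ}).toReal ≤ Θ * ρ ^ n := hΘ ρ hρ le_rfl
    have hq := qq_pos hr ρ
    have hle : ∀ t, 0 ≤ t → t ^ n * (qq r t)⁻¹ ^ n ≤ 1 := by
      intro t ht
      rw [← mul_pow]
      refine pow_le_one₀ (mul_nonneg ht (inv_nonneg.2 (qq_pos hr t).le)) ?_
      rw [← div_eq_mul_inv, div_le_one (qq_pos hr t)]
      exact le_qq r ht
    have h1 : qq r ρ ^ 2 * (qq r ρ)⁻¹ ^ n * (m {x | dist x y < ρ}).toReal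
        ≤ Θ * (ρ ^ 2 + r ^ 2) := by
      have h11 : qq r ρ ^ 2 * (qq r ρ)⁻¹ ^ n * (m {x | dist x y < ρ}).toReal
          ≤ qq r ρ ^ 2 * (qq r ρ)⁻¹ ^ n * (Θ * ρ ^ n) :=
        mul_le_mul_of_nonneg_left hV (by positivity)
      have h12 : qq r ρ ^ 2 * (qq r ρ)⁻¹ ^ n * (Θ * ρ ^ n)
          = (Θ * qq r ρ ^ 2) * (ρ ^ n * (qq r ρ)⁻¹ ^ n) := by ring
      rw [h12] at h11
      have h13 := mul_le_mul_of_nonneg_left (hle ρ hρ.le) (by positivity : 0 ≤ Θ * qq r ρ ^ 2)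
      have h14 := h11.trans h13
      rw [mul_one] at h14
      exact h14.trans_eq (by rw [qq_sq])
    have h2 : ∫ t in (0 : ℝ)..ρ, ((n : ℝ) - 2) * t * (qq r t)⁻¹ ^ n * (Θ * t ^ n)
        ≤ ∫ t in (0 : ℝ)..ρ, ((n : ℝ) - 2) * Θ * t := by
      refine intervalIntegral.integral_mono_on hρ.le
        ((hp.mul (by fun_prop)).intervalIntegrable _ _)
        ((by fun_prop : Continuous fun t : ℝ => ((n : ℝ) - 2) * Θ * t).intervalIntegrable _ _) ?_
      intro t ht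
      have h21 := mul_le_mul_of_nonneg_left (hle t ht.1)
        (mul_nonneg (mul_nonneg (sub_nonneg.2 hn2) hΘ0) ht.1)
      calc ((n : ℝ) - 2) * t * (qq r t)⁻¹ ^ n * (Θ * t ^ n)
          = ((n : ℝ) - 2) * Θ * t * (t ^ n * (qq r t)⁻¹ ^ n) := by ring
        _ ≤ _ := by rw [mul_one] at h21; exact h21
    have h3 : ∫ t in (0 : ℝ)..ρ, ((n : ℝ) - 2) * Θ * t = ((n : ℝ) - 2) * Θ * (ρ ^ 2 / 2) := by
      rw [intervalIntegral.integral_const_mul, integral_id]
      ring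
    refine (add_le_add h1 (h2.trans_eq h3)).trans (le_of_eq ?_)
    ring
  · intro t ht
    have hq := qq_pos hr t
    have d1 := (qq_deriv hr t).pow 2
    have d2 := qq_inv_deriv hr n t
    refine ((d1.mul d2).congr_deriv ?_).hasDerivWithinAt
    simp only [Pi.pow_apply]
    have e1 : (qq r t)⁻¹ ^ (n + 2) = (qq r t)⁻¹ ^ n * (qq r t)⁻¹ ^ 2 := pow_add _ _ _
    rw [e1]
    field_simp
    ring
  · intro t ht
    have := qq_pos hr t
    exact mul_nonneg (mul_nonneg (sub_nonneg.2 hn2) ht.1) (by positivity)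
  · intro t ht
    rcases eq_or_lt_of_le ht.1 with h0 | h0
    · rw [← h0]
      have : {x : M | dist x y < 0} = ∅ := by
        ext x; simp [dist_nonneg]
      rw [this]
      simp only [measure_empty, ENNReal.toReal_zero]
      rw [zero_pow (by omega), mul_zero]
    · exact hΘ t h0 ht.2


/-- the profile `((2 g + r²)^{-n/2} - (2 δ₁ + r²)^{-n/2})₊` as a function of `w = g - δ₁` -/
noncomputable def et (n : ℕ) (r δ : ℝ) (t : ℝ) : ℝ :=
  (√(max (2 * (t + δ) + r ^ 2) (r ^ 2)))⁻¹ ^ n - (√(2 * δ + r ^ 2))⁻¹ ^ n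

noncomputable def et' (n : ℕ) (r δ : ℝ) (t : ℝ) : ℝ :=
  -(n * (√(max (2 * (t + δ) + r ^ 2) (r ^ 2)))⁻¹ ^ (n + 2))

theorem et_base_pos {r : ℝ} (hr : 0 < r) (δ t : ℝ) :
    0 < √(max (2 * (t + δ) + r ^ 2) (r ^ 2)) :=
  Real.sqrt_pos.2 (lt_of_lt_of_le (by positivity) (le_max_right _ _))

theorem et_cont {r : ℝ} (hr : 0 < r) (n : ℕ) (δ : ℝ) : Continuous (et n r δ) := by
  unfold et
  have h1 : Continuous fun t : ℝ => (√(max (2 * (t + δ) + r ^ 2) (r ^ 2)))⁻¹ :=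
    Continuous.inv₀ (by fun_prop) fun t => (et_base_pos hr δ t).ne'
  fun_prop

theorem et'_cont {r : ℝ} (hr : 0 < r) (n : ℕ) (δ : ℝ) : Continuous (et' n r δ) := by
  unfold et'
  have h1 : Continuous fun t : ℝ => (√(max (2 * (t + δ) + r ^ 2) (r ^ 2)))⁻¹ :=
    Continuous.inv₀ (by fun_prop) fun t => (et_base_pos hr δ t).ne'
  fun_prop

theorem et_deriv {r δ : ℝ} (hr : 0 < r) (n : ℕ) :
    ∀ t ∈ Icc (-δ) δ, HasDerivWithinAt (et n r δ) (et' n r δ t) (Icc (-δ) δ) t := by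
  intro t ht
  have hb : ∀ s ∈ Icc (-δ) δ, et n r δ s
      = (√(2 * (s + δ) + r ^ 2))⁻¹ ^ n - (√(2 * δ + r ^ 2))⁻¹ ^ n := by
    intro s hs
    unfold et
    rw [max_eq_left (by linarith [hs.1])]
  have hpos : 0 < 2 * (t + δ) + r ^ 2 := by
    have := ht.1
    have : 0 ≤ t + δ := by linarith
    positivity
  have d1 : HasDerivAt (fun t : ℝ => 2 * (t + δ) + r ^ 2) 2 t := by
    have := (((hasDerivAt_id t).add_const δ).const_mul 2).add_const (r ^ 2)
    simpa using this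
  have d2 := d1.sqrt hpos.ne'
  have hs : 0 < √(2 * (t + δ) + r ^ 2) := Real.sqrt_pos.2 hpos
  have d3 := ((d2.inv hs.ne').pow n).sub_const ((√(2 * δ + r ^ 2))⁻¹ ^ n)
  refine (d3.hasDerivWithinAt.congr (fun s hs => ?_) ?_).congr_deriv ?_
  · rw [hb s hs]; rfl
  · rw [hb t ht]; rfl
  · unfold et'
    rw [max_eq_left (by linarith [ht.1])]
    simp only [Pi.inv_apply]
    rcases n with _ | k
    · simp
    · rw [Nat.add_sub_cancel, show k + 1 + 2 = k + 3 by ring, pow_add _ k 3]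
      field_simp

theorem et_zero (n : ℕ) {r δ : ℝ} (hδ : 0 ≤ δ) : et n r δ 0 = 0 := by
  unfold et
  rw [max_eq_left (by linarith), zero_add, sub_self]

theorem et_gg {n : ℕ} {r δ : ℝ} {M : Type u} [MetricSpace M] (y x : M) (hx : gg y x < δ) :
    et n r δ (ww δ y x) = (qq r (dist x y))⁻¹ ^ n - (√(2 * δ + r ^ 2))⁻¹ ^ n := by
  unfold et
  rw [H982.ww_of_lt hx]
  have h0 := H982.gg_nonneg y x
  rw [max_eq_left (by linarith)]
  unfold qq gg
  congr 4
  ring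

theorem et'_gg {n : ℕ} {r δ : ℝ} {M : Type u} [MetricSpace M] (y x : M) :
    et' n r δ (gg y x - δ) = -(n * (qq r (dist x y))⁻¹ ^ (n + 2)) := by
  unfold et'
  have h0 := H982.gg_nonneg y x
  rw [max_eq_left (by linarith)]
  unfold qq gg
  congr 5
  ring

variable {n : ℕ} {K : ℝ} {θ : M → ℝ} {δ κ : ℝ}

/-- the test function -/
noncomputable def PhiR (m : Measure M) (n : ℕ) {r : ℝ} (hr : 0 < r) (δ₁ : ℝ) (y : M) : M →ₘ[m] ℝ :=
  AEEqFun.comp (et n r δ₁) (et_cont hr n δ₁) (cl m (ww δ₁ y))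

theorem ball_eq (y : M) {δ₁ : ℝ} (hδ : 0 ≤ δ₁) :
    {x : M | gg y x < δ₁} = Metric.ball y √(2 * δ₁) := by
  ext x
  rw [Metric.mem_ball]
  exact H339.gg_lt_iff hδ y x

/-- **The value of `ν_y` on the test function.** -/
theorem nuF_PhiR (h : N2.RA.NSp m n K θ) (hκ : 0 ≤ κ) (hn : 2 ≤ n) (hδ : 0 < δ) {δ₁ r Θ : ℝ} (hδ₁ : 0 < δ₁)
    (hle : δ₁ ≤ δ) (hr : 0 < r) (y : M)
    (hΘ : ∀ t, 0 < t → t ≤ √(2 * δ₁) → (m (Metric.ball y t)).toReal ≤ Θ * t ^ n) :
    PhiR m n hr δ₁ y ∈ (sob m).W ∧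
    (∀ᵐ x ∂m, gg y x < δ₁ → PhiR m n hr δ₁ y x
      = (qq r (dist x y))⁻¹ ^ n - (√(2 * δ₁ + r ^ 2))⁻¹ ^ n) ∧
    (∀ᵐ x ∂m, δ₁ ≤ gg y x → PhiR m n hr δ₁ y x = 0) ∧
    nuF m n κ δ y (PhiR m n hr δ₁ y)
      ≤ n * (Θ - (m (Metric.ball y √(2 * δ₁))).toReal / √(2 * δ₁) ^ n)
        + κ / 2 * (Θ * (2 * δ₁) * (n / 2) + Θ * r ^ 2) := by
  set ρ : ℝ := √(2 * δ₁) with hρdef
  have hρ : 0 < ρ := Real.sqrt_pos.2 (by linarith)
  have hρ2 : ρ ^ 2 = 2 * δ₁ := Real.sq_sqrt (by linarith)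
  obtain ⟨h1, h2, h3⟩ := nuF_radial h hδ hδ₁ y (et_cont hr n δ₁) (et'_cont hr n δ₁)
    (et_deriv hr n) (et_zero n hδ₁.le) (n := n) (κ := κ)
  have hqe : √(2 * δ₁ + r ^ 2) = qq r ρ := by unfold qq; rw [hρ2]
  refine ⟨h1, ?_, ?_, ?_⟩
  · filter_upwards [h2] with x hx hx'
    exact hx.trans (et_gg y x hx')
  · filter_upwards [h2] with x hx hx'
    refine hx.trans ?_
    rw [H982.ww_of_ge hx', et_zero n hδ₁.le]
  · change nuF m n κ δ y (AEEqFun.comp (et n r δ₁) (et_cont hr n δ₁) (cl m (ww δ₁ y))) ≤ _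
    rw [h3]
    have hb : {x : M | gg y x < δ₁} = Metric.ball y ρ := ball_eq y hδ₁.le
    have hms : MeasurableSet (Metric.ball y ρ) := Metric.isOpen_ball.measurableSet
    have hsub : {x : M | gg y x < δ₁} ⊆ {x : M | gg y x < δ} := fun x hx => lt_of_lt_of_le hx hle
    -- the integral is over the small ball
    have e1 : ∫ x in {x : M | gg y x < δ}, (((n : ℝ) + κ * gg y x) * et n r δ₁ (ww δ₁ y x)
        + (if gg y x < δ₁ then 2 * gg y x * et' n r δ₁ (gg y x - δ₁) else 0)) ∂m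
        = ∫ x in Metric.ball y ρ, ((n : ℝ) * r ^ 2 * (qq r (dist x y))⁻¹ ^ (n + 2)
          - n * (qq r ρ)⁻¹ ^ n
          + κ * gg y x * ((qq r (dist x y))⁻¹ ^ n - (qq r ρ)⁻¹ ^ n)) ∂m := by
      rw [← integral_indicator hms, ← integral_indicator (H982.measurableSet_gg δ y)]
      refine integral_congr_ae (Eventually.of_forall fun x => ?_)
      by_cases hx : gg y x < δ₁
      · have hx1 : x ∈ Metric.ball y ρ := by rw [← hb]; exact hx
        have hx2 : x ∈ {x : M | gg y x < δ} := hsub hx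
        rw [indicator_of_mem hx1, indicator_of_mem hx2, if_pos hx, et_gg y x hx, et'_gg, hqe]
        have hq := qq_pos hr (dist x y)
        have hs := qq_sq r (dist x y)
        have hg : 2 * gg y x = dist x y ^ 2 := by unfold gg; ring
        have e2 : (qq r (dist x y))⁻¹ ^ n = (qq r (dist x y)) ^ 2 * (qq r (dist x y))⁻¹ ^ (n + 2) := by
          rw [pow_add _ n 2]; field_simp
        have e3 : (n : ℝ) * (qq r (dist x y))⁻¹ ^ n + 2 * gg y x
            * -(n * (qq r (dist x y))⁻¹ ^ (n + 2))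
            = n * r ^ 2 * (qq r (dist x y))⁻¹ ^ (n + 2) := by
          rw [e2, hg, hs]; ring
        linarith
      · have hx1 : x ∉ Metric.ball y ρ := by rw [← hb]; exact hx
        rw [indicator_of_notMem hx1]
        by_cases hx2 : x ∈ {x : M | gg y x < δ}
        · rw [indicator_of_mem hx2, if_neg hx, H982.ww_of_ge (not_lt.1 hx), et_zero n hδ₁.le]
          ring
        · rw [indicator_of_notMem hx2]
    rw [e1]
    -- integrability
    have hfi : IsFiniteMeasure (m.restrict (Metric.ball y ρ)) :=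
      ⟨by rw [Measure.restrict_apply_univ]; exact h.fin y ρ⟩
    have hqc : Continuous fun x : M => (qq r (dist x y))⁻¹ :=
      ((qq_cont r).comp (continuous_id.dist continuous_const)).inv₀ fun x => (qq_pos hr _).ne'
    have hqb : ∀ x : M, |(qq r (dist x y))⁻¹| ≤ r⁻¹ := by
      intro x
      rw [abs_of_pos (inv_pos.2 (qq_pos hr _))]
      refine inv_anti₀ hr ?_
      unfold qq
      exact Real.le_sqrt_of_sq_le (by nlinarith [sq_nonneg (dist x y)])
    have i1 : ∀ k : ℕ, IntegrableOn (fun x : M => (qq r (dist x y))⁻¹ ^ k) (Metric.ball y ρ) m := by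
      intro k
      refine Integrable.mono' (g := fun _ => r⁻¹ ^ k) (integrable_const _)
        (hqc.pow k).aestronglyMeasurable (Eventually.of_forall fun x => ?_)
      rw [Real.norm_eq_abs, abs_pow]
      exact pow_le_pow_left₀ (abs_nonneg _) (hqb x) k
    have hgb : ∀ᵐ x ∂(m.restrict (Metric.ball y ρ)), 0 ≤ gg y x ∧ gg y x ≤ δ₁ := by
      filter_upwards [ae_restrict_mem hms] with x hx
      rw [← hb] at hx
      exact ⟨H982.gg_nonneg y x, le_of_lt hx⟩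
    have hqb' : ∀ᵐ x ∂(m.restrict (Metric.ball y ρ)),
        (qq r ρ)⁻¹ ^ n ≤ (qq r (dist x y))⁻¹ ^ n := by
      filter_upwards [ae_restrict_mem hms] with x hx
      rw [Metric.mem_ball] at hx
      refine pow_le_pow_left₀ (inv_nonneg.2 (qq_pos hr _).le) (inv_anti₀ (qq_pos hr _) ?_) n
      unfold qq
      refine Real.sqrt_le_sqrt ?_
      have := dist_nonneg (x := x) (y := y)
      nlinarith
    have i2 : IntegrableOn (fun x : M => qq r (dist x y) ^ 2 * (qq r (dist x y))⁻¹ ^ n)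
        (Metric.ball y ρ) m := by
      have hc : Continuous fun x : M => qq r (dist x y) :=
        (qq_cont r).comp (continuous_id.dist continuous_const)
      refine Integrable.mono' (g := fun _ => (ρ ^ 2 + r ^ 2) * r⁻¹ ^ n) (integrable_const _)
        ((hc.pow 2).mul (hqc.pow n)).aestronglyMeasurable ?_
      filter_upwards [ae_restrict_mem hms] with x hx
      rw [Metric.mem_ball] at hx
      rw [Real.norm_eq_abs, abs_mul, abs_pow (qq r (dist x y))⁻¹, abs_pow, sq_abs, qq_sq]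
      have := dist_nonneg (x := x) (y := y)
      refine mul_le_mul (by nlinarith) (pow_le_pow_left₀ (abs_nonneg _) (hqb x) n)
        (by positivity) (by positivity)
    -- split
    have s1 : ∫ x in Metric.ball y ρ, ((n : ℝ) * r ^ 2 * (qq r (dist x y))⁻¹ ^ (n + 2)
          - n * (qq r ρ)⁻¹ ^ n
          + κ * gg y x * ((qq r (dist x y))⁻¹ ^ n - (qq r ρ)⁻¹ ^ n)) ∂m
        ≤ ∫ x in Metric.ball y ρ, (((n : ℝ) * r ^ 2 * (qq r (dist x y))⁻¹ ^ (n + 2)
          - n * (qq r ρ)⁻¹ ^ n)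
          + κ / 2 * (qq r (dist x y) ^ 2 * (qq r (dist x y))⁻¹ ^ n)) ∂m := by
      have ia : IntegrableOn (fun x : M => (n : ℝ) * r ^ 2 * (qq r (dist x y))⁻¹ ^ (n + 2)
          - n * (qq r ρ)⁻¹ ^ n) (Metric.ball y ρ) m :=
        ((i1 (n + 2)).const_mul _).sub (integrable_const _)
      refine integral_mono_ae (ia.add ?_) (ia.add (i2.const_mul _)) ?_
      · refine Integrable.mono' (g := fun x => κ * δ₁ * (qq r (dist x y))⁻¹ ^ n)
          ((i1 n).const_mul _) ?_ ?_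
        · refine AEStronglyMeasurable.mul ?_ ((hqc.pow n).sub continuous_const).aestronglyMeasurable
          refine (Continuous.aestronglyMeasurable ?_)
          have hgc : Continuous fun x : M => gg y x := by
            unfold gg
            exact ((continuous_id.dist continuous_const).pow 2).div_const 2
          exact continuous_const.mul hgc
        · filter_upwards [hgb, hqb'] with x hx1 hx2
          have h5 : 0 ≤ (qq r ρ)⁻¹ ^ n := pow_nonneg (inv_nonneg.2 (qq_pos hr _).le) n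
          have h55 : 0 ≤ κ * gg y x := mul_nonneg (by positivity) hx1.1
          rw [Real.norm_eq_abs, abs_mul, abs_of_nonneg h55, abs_of_nonneg (sub_nonneg.2 hx2)]
          have h56 : κ * gg y x ≤ κ * δ₁ :=
            mul_le_mul_of_nonneg_left hx1.2 (by positivity)
          have h57 : 0 ≤ κ * δ₁ := h55.trans h56
          exact mul_le_mul h56 (by linarith) (by linarith) h57
      · filter_upwards [hgb, hqb'] with x hx1 hx2
        have h5 : 0 ≤ (qq r ρ)⁻¹ ^ n := pow_nonneg (inv_nonneg.2 (qq_pos hr _).le) n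
        have hg : 2 * gg y x ≤ qq r (dist x y) ^ 2 := by
          rw [qq_sq]; unfold gg; nlinarith [sq_nonneg r]
        have h6 : 2 * gg y x * ((qq r (dist x y))⁻¹ ^ n - (qq r ρ)⁻¹ ^ n)
            ≤ qq r (dist x y) ^ 2 * (qq r (dist x y))⁻¹ ^ n :=
          mul_le_mul hg (by linarith) (by linarith) (by positivity)
        have h7 := mul_le_mul_of_nonneg_left h6 (by positivity : 0 ≤ κ / 2)
        linarith
    refine s1.trans ?_
    have s2 : ∫ x in Metric.ball y ρ, (((n : ℝ) * r ^ 2 * (qq r (dist x y))⁻¹ ^ (n + 2)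
          - n * (qq r ρ)⁻¹ ^ n)
          + κ / 2 * (qq r (dist x y) ^ 2 * (qq r (dist x y))⁻¹ ^ n)) ∂m
        = (∫ x in Metric.ball y ρ, (n : ℝ) * r ^ 2 * (qq r (dist x y))⁻¹ ^ (n + 2) ∂m
          - ∫ x in Metric.ball y ρ, (n : ℝ) * (qq r ρ)⁻¹ ^ n ∂m)
          + ∫ x in Metric.ball y ρ, κ / 2 * (qq r (dist x y) ^ 2 * (qq r (dist x y))⁻¹ ^ n) ∂m := by
      have ia : IntegrableOn (fun x : M => (n : ℝ) * r ^ 2 * (qq r (dist x y))⁻¹ ^ (n + 2)
          - n * (qq r ρ)⁻¹ ^ n) (Metric.ball y ρ) m :=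
        ((i1 (n + 2)).const_mul _).sub (integrable_const _)
      rw [integral_add ia (i2.const_mul _),
        integral_sub ((i1 (n + 2)).const_mul _) (integrable_const _)]
    rw [s2, integral_const_mul (κ / 2), setIntegral_const]
    have t1 := vol_int1 (m := m) h.fin y (n := n) (by omega) hr hρ hΘ
    have t2 := vol_int2 (m := m) h.fin y hn hr hρ hΘ
    have t3 := mul_le_mul_of_nonneg_left t2 (by positivity : 0 ≤ κ / 2)
    have hV := hΘ ρ hρ le_rfl
    set V : ℝ := (m (Metric.ball y ρ)).toReal with hVdef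
    have hVr : m.real (Metric.ball y ρ) = V := rfl
    rw [hVr, smul_eq_mul, ← hρ2]
    have hρn : 0 < ρ ^ n := by positivity
    have h8 : V / ρ ^ n ≤ Θ := by rw [div_le_iff₀ hρn]; exact hV
    have h9 : (ρ * (qq r ρ)⁻¹) ^ n ≤ 1 := by
      refine pow_le_one₀ (mul_nonneg hρ.le (inv_nonneg.2 (qq_pos hr _).le)) ?_
      rw [← div_eq_mul_inv, div_le_one (qq_pos hr _)]
      exact le_qq r hρ.le
    have h10 : Θ * n * (ρ * (qq r ρ)⁻¹) ^ n - V * (n * (qq r ρ)⁻¹ ^ n)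
        = n * (Θ - V / ρ ^ n) * (ρ * (qq r ρ)⁻¹) ^ n := by
      rw [mul_pow]
      field_simp
    have h11 : n * (Θ - V / ρ ^ n) * (ρ * (qq r ρ)⁻¹) ^ n ≤ n * (Θ - V / ρ ^ n) := by
      have := mul_le_mul_of_nonneg_left h9
        (mul_nonneg (Nat.cast_nonneg n : (0 : ℝ) ≤ n) (sub_nonneg.2 h8))
      rwa [mul_one] at this
    linarith

end Vale.Agent.P242.H744.Drop
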