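import Vale.Agent.P242.H744.DropB

/-!
P242, block VolDrop, part C: the dyadic sum.
-/

set_option linter.all false

open MeasureTheory Filter Topology Set
open scoped ENNReal NNReal MeasureTheory

universe u

namespace Vale.Agent.P242.H744.Drop

open Vale.Agent.P233 Vale.Agent.P233.N2 Vale.Agent.P233.N2.RA

theorem sum_min_le {y : ℝ} (hy : 0 < y) (J : ℕ) :
    ∑ j ∈ Finset.range J, min (y * 2 ^ j) (y * 2 ^ j)⁻¹ ≤ 6 := by
  have key : ∀ J : ℕ, ∑ j ∈ Finset.range J, min (y * 2 ^ j) (y * 2 ^ j)⁻¹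
      ≤ 6 * (y * 2 ^ J / (1 + y * 2 ^ J)) := by
    intro J
    induction J with
    | zero =>
      rw [Finset.sum_range_zero]
      positivity
    | succ J ih =>
      rw [Finset.sum_range_succ]
      have e : y * 2 ^ (J + 1) = 2 * (y * 2 ^ J) := by rw [pow_succ]; ring
      rw [e]
      have ht0 : 0 < y * 2 ^ J := by positivity
      generalize y * 2 ^ J = t at *
      have h1 : min t t⁻¹ ≤ 6 * (2 * t / (1 + 2 * t)) - 6 * (t / (1 + t)) := by
        have e2 : 6 * (2 * t / (1 + 2 * t)) - 6 * (t / (1 + t))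
            = 6 * t / ((1 + t) * (1 + 2 * t)) := by
          field_simp
          ring
        rw [e2, le_div_iff₀ (by positivity)]
        rcases le_total t 1 with h | h
        · have h2 : min t t⁻¹ ≤ t := min_le_left _ _
          have h3 : (1 + t) * (1 + 2 * t) ≤ 6 := by nlinarith
          have h4 : 0 ≤ (1 + t) * (1 + 2 * t) := by positivity
          nlinarith
        · have h2 : min t t⁻¹ ≤ t⁻¹ := min_le_right _ _
          have h3 : t⁻¹ * ((1 + t) * (1 + 2 * t)) ≤ 6 * t := by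
            rw [inv_mul_le_iff₀ ht0]
            nlinarith
          have h4 : 0 ≤ (1 + t) * (1 + 2 * t) := by positivity
          exact (mul_le_mul_of_nonneg_right h2 h4).trans h3
      linarith
  refine (key J).trans ?_
  have h0 : 0 < y * 2 ^ J := by positivity
  have : y * 2 ^ J / (1 + y * 2 ^ J) ≤ 1 := by
    rw [div_le_one (by positivity)]
    linarith
  linarith

theorem pow_mul_exp_le (k : ℕ) {c t : ℝ} (hc : 0 < c) (ht : 0 ≤ t) :
    t ^ k * Real.exp (-(c * t ^ 2)) ≤ 1 + k.factorial / c ^ k := by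
  have h1 : t ^ k ≤ 1 + (t ^ 2) ^ k := by
    rcases le_total t 1 with h | h
    · have := pow_le_one₀ (n := k) ht h
      have := pow_nonneg (sq_nonneg t) k
      linarith
    · have : t ^ k ≤ (t ^ 2) ^ k := pow_le_pow_left₀ ht (by nlinarith) k
      linarith
  have h2 := Real.pow_div_factorial_le_exp (x := c * t ^ 2) (by positivity) k
  have hk : (0 : ℝ) < k.factorial := by exact_mod_cast k.factorial_pos
  have h3 : (t ^ 2) ^ k * Real.exp (-(c * t ^ 2)) ≤ k.factorial / c ^ k := by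
    rw [Real.exp_neg, ← div_eq_mul_inv, div_le_div_iff₀ (Real.exp_pos _) (by positivity)]
    rw [div_le_iff₀ hk] at h2
    calc (t ^ 2) ^ k * c ^ k = (c * t ^ 2) ^ k := by rw [mul_pow]; ring
      _ ≤ _ := by linarith
  have h4 : Real.exp (-(c * t ^ 2)) ≤ 1 := by
    rw [Real.exp_le_one_iff]
    have : 0 ≤ c * t ^ 2 := by positivity
    linarith
  have h5 := mul_le_mul_of_nonneg_right h1 (Real.exp_pos (-(c * t ^ 2))).le
  linarith

/-- the constant of `sum_gauss_le` -/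
noncomputable def Cg (n : ℕ) (c : ℝ) : ℝ :=
  2 + (n + 1).factorial / (c / 2) ^ (n + 1) + (n - 1).factorial / (c / 2) ^ (n - 1)

theorem Cg_pos (n : ℕ) {c : ℝ} (hc : 0 < c) : 0 < Cg n c := by
  unfold Cg; positivity

theorem pow_exp_min {n : ℕ} (hn : 1 ≤ n) {c : ℝ} (hc : 0 < c) {t : ℝ} (ht : 0 < t) :
    t ^ n * Real.exp (-(c / 2 * t ^ 2)) ≤ Cg n c * min t t⁻¹ := by
  have hc2 : 0 < c / 2 := by positivity
  have h1 := pow_mul_exp_le (n - 1) hc2 ht.le
  have h2 := pow_mul_exp_le (n + 1) hc2 ht.le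
  have p1 : (0 : ℝ) ≤ (n + 1).factorial / (c / 2) ^ (n + 1) := by positivity
  have p2 : (0 : ℝ) ≤ (n - 1).factorial / (c / 2) ^ (n - 1) := by positivity
  rcases min_cases t t⁻¹ with ⟨h, _⟩ | ⟨h, _⟩
  · rw [h]
    have e : t ^ n = t * t ^ (n - 1) := by
      rw [← pow_succ', Nat.sub_add_cancel hn]
    rw [e, mul_assoc]
    have h3 : t ^ (n - 1) * Real.exp (-(c / 2 * t ^ 2)) ≤ Cg n c := by unfold Cg; linarith
    have := mul_le_mul_of_nonneg_left h3 ht.le
    linarith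
  · rw [h]
    have e : t ^ n = t⁻¹ * t ^ (n + 1) := by
      rw [pow_succ]; field_simp
    rw [e, mul_assoc]
    have h3 : t ^ (n + 1) * Real.exp (-(c / 2 * t ^ 2)) ≤ Cg n c := by unfold Cg; linarith
    have := mul_le_mul_of_nonneg_left h3 (inv_pos.2 ht).le
    linarith

/-- The dyadic sum of Gaussians is at most `C (2 g + r²)^{-n/2}`. -/
theorem sum_gauss_le {n : ℕ} (hn : 1 ≤ n) {c : ℝ} (hc : 0 < c) {σ : ℝ} (hσ : 0 < σ) (J : ℕ)
    {g : ℝ} (hg : 0 ≤ g) :
    ∑ j ∈ Finset.range J, (σ / 2 ^ j)⁻¹ ^ n * Real.exp (-(c * g / (σ / 2 ^ j) ^ 2))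
      ≤ 6 * Cg n c * Real.exp (c / 2) * (√(2 * g + (σ / 2 ^ J) ^ 2))⁻¹ ^ n := by
  set r : ℝ := σ / 2 ^ J with hr
  have hr0 : 0 < r := by positivity
  set q : ℝ := √(2 * g + r ^ 2) with hq
  have hq2 : q ^ 2 = 2 * g + r ^ 2 := Real.sq_sqrt (by positivity)
  have hq0 : 0 < q := Real.sqrt_pos.2 (by positivity)
  have hterm : ∀ j ∈ Finset.range J,
      (σ / 2 ^ j)⁻¹ ^ n * Real.exp (-(c * g / (σ / 2 ^ j) ^ 2))
      ≤ q⁻¹ ^ n * Real.exp (c / 2) * Cg n c * min (q / σ * 2 ^ j) (q / σ * 2 ^ j)⁻¹ := by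
    intro j hj
    rw [Finset.mem_range] at hj
    set s : ℝ := σ / 2 ^ j with hs
    have hs0 : 0 < s := by positivity
    have hrs : r ≤ s := by
      rw [hr, hs]
      exact div_le_div_of_nonneg_left hσ.le (by positivity)
        (pow_le_pow_right₀ (by norm_num) hj.le)
    have hY : q / σ * 2 ^ j = q / s := by rw [hs]; field_simp
    rw [hY]
    have hY0 : 0 < q / s := by positivity
    have h1 := pow_exp_min hn hc hY0
    have h2 : Real.exp (-(c * g / s ^ 2)) ≤ Real.exp (c / 2) * Real.exp (-(c / 2 * (q / s) ^ 2)) := by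
      rw [← Real.exp_add]
      apply Real.exp_le_exp.2
      have h3 : c / 2 * (q / s) ^ 2 = c * g / s ^ 2 + c / 2 * (r / s) ^ 2 := by
        rw [div_pow, hq2, div_pow]
        ring
      have h4 : (r / s) ^ 2 ≤ 1 := by
        apply pow_le_one₀ (by positivity)
        rw [div_le_one hs0]
        exact hrs
      rw [h3]
      nlinarith
    have h5 : s⁻¹ ^ n = q⁻¹ ^ n * (q / s) ^ n := by
      rw [← mul_pow]
      congr 1
      field_simp
    rw [h5]
    calc q⁻¹ ^ n * (q / s) ^ n * Real.exp (-(c * g / s ^ 2))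
        ≤ q⁻¹ ^ n * (q / s) ^ n * (Real.exp (c / 2) * Real.exp (-(c / 2 * (q / s) ^ 2))) :=
          mul_le_mul_of_nonneg_left h2 (by positivity)
      _ = q⁻¹ ^ n * Real.exp (c / 2) * ((q / s) ^ n * Real.exp (-(c / 2 * (q / s) ^ 2))) := by
          ring
      _ ≤ q⁻¹ ^ n * Real.exp (c / 2) * (Cg n c * min (q / s) (q / s)⁻¹) :=
          mul_le_mul_of_nonneg_left h1 (by positivity)
      _ = _ := by ring
  refine (Finset.sum_le_sum hterm).trans ?_
  rw [← Finset.mul_sum]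
  have h6 := sum_min_le (y := q / σ) (by positivity) J
  have h7 := Cg_pos n hc
  have := mul_le_mul_of_nonneg_left h6
    (by positivity : 0 ≤ q⁻¹ ^ n * Real.exp (c / 2) * Cg n c)
  linarith

/-- The dyadic sum of Gaussians away from the centre. -/
theorem sum_tail_le {n : ℕ} {c : ℝ} (hc : 0 < c) {σ : ℝ} (hσ : 0 < σ) (J : ℕ)
    {g d : ℝ} (hd : 0 < d) (hg : d ≤ g) :
    ∑ j ∈ Finset.range J, (σ / 2 ^ j)⁻¹ ^ n * Real.exp (-(c * g / (σ / 2 ^ j) ^ 2))
      ≤ 2 * (n + 1).factorial * (c * d)⁻¹ ^ (n + 1) * σ ^ (n + 2) := by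
  have hterm : ∀ j ∈ Finset.range J,
      (σ / 2 ^ j)⁻¹ ^ n * Real.exp (-(c * g / (σ / 2 ^ j) ^ 2))
      ≤ (n + 1).factorial * (c * d)⁻¹ ^ (n + 1) * σ ^ (n + 2) * (1 / 2) ^ j := by
    intro j hj
    set s : ℝ := σ / 2 ^ j with hs
    have hs0 : 0 < s := by positivity
    have hx : 0 < c * d / s ^ 2 := by positivity
    have h1 := Real.pow_div_factorial_le_exp (x := c * d / s ^ 2) hx.le (n + 1)
    have hk : (0 : ℝ) < (n + 1).factorial := by exact_mod_cast (n + 1).factorial_pos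
    have h2 : Real.exp (-(c * g / s ^ 2)) ≤ Real.exp (-(c * d / s ^ 2)) := by
      apply Real.exp_le_exp.2
      apply neg_le_neg
      gcongr
    have h3 : Real.exp (-(c * d / s ^ 2)) ≤ (n + 1).factorial * ((c * d)⁻¹ * s ^ 2) ^ (n + 1) := by
      rw [Real.exp_neg]
      rw [div_le_iff₀ hk] at h1
      have h4 : (c * d)⁻¹ * s ^ 2 = (c * d / s ^ 2)⁻¹ := by field_simp
      rw [h4, inv_pow, ← div_eq_mul_inv, inv_le_comm₀ (Real.exp_pos _) (by positivity), inv_div,
        div_le_iff₀ hk]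
      exact h1
    have h5 : s⁻¹ ^ n * ((n + 1).factorial * ((c * d)⁻¹ * s ^ 2) ^ (n + 1))
        = (n + 1).factorial * (c * d)⁻¹ ^ (n + 1) * s ^ (n + 2) := by
      have : s⁻¹ ^ n * (s ^ 2) ^ (n + 1) = s ^ (n + 2) := by
        rw [← pow_mul, show 2 * (n + 1) = n + (n + 2) by ring, pow_add, ← mul_assoc, ← mul_pow,
          inv_mul_cancel₀ hs0.ne', one_pow, one_mul]
      rw [mul_pow, ← this]
      ring
    have h6 : s ^ (n + 2) ≤ σ ^ (n + 2) * (1 / 2) ^ j := by
      have e1 : s ^ (n + 2) = s ^ (n + 1) * s := pow_succ _ _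
      have e2 : s ≤ σ := div_le_self hσ.le (one_le_pow₀ (by norm_num))
      have e3 : s = σ * (1 / 2) ^ j := by
        rw [hs, one_div, inv_pow, div_eq_mul_inv]
      calc s ^ (n + 2) = s ^ (n + 1) * s := e1
        _ ≤ σ ^ (n + 1) * s := by gcongr
        _ = σ ^ (n + 1) * (σ * (1 / 2) ^ j) := by rw [← e3]
        _ = _ := by rw [pow_succ σ (n + 1)]; ring
    calc s⁻¹ ^ n * Real.exp (-(c * g / s ^ 2))
        ≤ s⁻¹ ^ n * ((n + 1).factorial * ((c * d)⁻¹ * s ^ 2) ^ (n + 1)) :=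
          mul_le_mul_of_nonneg_left (h2.trans h3) (by positivity)
      _ = (n + 1).factorial * (c * d)⁻¹ ^ (n + 1) * s ^ (n + 2) := h5
      _ ≤ (n + 1).factorial * (c * d)⁻¹ ^ (n + 1) * (σ ^ (n + 2) * (1 / 2) ^ j) :=
          mul_le_mul_of_nonneg_left h6 (by positivity)
      _ = _ := by ring
  refine (Finset.sum_le_sum hterm).trans ?_
  rw [← Finset.mul_sum]
  have h7 : ∑ j ∈ Finset.range J, (1 / 2 : ℝ) ^ j ≤ 2 := by
    have := Summable.sum_le_tsum (Finset.range J) (fun i _ => by positivity)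
      summable_geometric_two
    rwa [tsum_geometric_two] at this
  have := mul_le_mul_of_nonneg_left h7
    (by positivity : 0 ≤ ((n + 1).factorial : ℝ) * (c * d)⁻¹ ^ (n + 1) * σ ^ (n + 2))
  linarith

end Vale.Agent.P242.H744.Drop
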